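import Vale.Agent.P146.H605.Conv
import Vale.Agent.P146.R2.HDef

/-!
# P146: Hermite polynomials of a standard Gaussian vector and Hermite coefficients
-/

open MeasureTheory ProbabilityTheory

namespace Vale.Agent.P146.R2.H749

open Vale.Agent.P146 Vale.Agent.P146.Ub.Cv Vale.Agent.P146.H605 Vale.Agent.P146.R2

lemma mul_he (k : ℕ) (x : ℝ) : x * he k x = he (k + 1) x + k * he (k - 1) x := by
  cases k with
  | zero => simp [he_zero, he_one]
  | succ k =>
    rw [he_succ_succ, Nat.add_sub_cancel]
    push_cast
    ring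

lemma hasDerivAt_he (k : ℕ) (x : ℝ) : HasDerivAt (he k) (k * he (k - 1) x) x := by
  induction k using Nat.twoStepInduction with
  | zero =>
    have h : he 0 = fun _ => (1 : ℝ) := funext fun _ => rfl
    rw [h]
    simpa using hasDerivAt_const x (1 : ℝ)
  | one =>
    have h : he 1 = fun x => x := funext fun _ => rfl
    rw [h]
    simpa [he_zero] using hasDerivAt_id' x
  | more k ih1 ih2 =>
    have h : he (k + 2) = fun x => x * he (k + 1) x - (k + 1) * he k x := funext fun _ => rfl
    rw [h]
    have h1 := ((hasDerivAt_id x).mul ih2).sub (ih1.const_mul ((k : ℝ) + 1))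
    refine h1.congr_deriv ?_
    have h2 := mul_he k x
    simp only [id]
    rw [show k + 2 - 1 = k + 1 from rfl, show k + 1 - 1 = k from rfl]
    push_cast
    linear_combination ((k : ℝ) + 1) * h2

lemma continuous_he (k : ℕ) : Continuous (he k) :=
  continuous_iff_continuousAt.2 fun x => (hasDerivAt_he k x).continuousAt

section multi

variable {ι : Type*} [Fintype ι]

lemma dom_he (k : ℕ) (i : ι) : Dom (fun g : ι → ℝ => he k (g i)) := by
  induction k using Nat.twoStepInduction with
  | zero => exact Dom.const 1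
  | one => exact Dom.coord i
  | more k ih1 ih2 => exact ((Dom.coord i).mul ih2).sub (ih1.const_mul _)

lemma dom_heM (α : ι → ℕ) : Dom (heM α : (ι → ℝ) → ℝ) :=
  Dom.prod Finset.univ fun i _ => dom_he (α i) i

variable [DecidableEq ι]

lemma heM_split (α : ι → ℕ) (e : ι) (g : ι → ℝ) :
    heM α g = he (α e) (g e) * ∏ i ∈ Finset.univ.erase e, he (α i) (g i) :=
  (Finset.mul_prod_erase Finset.univ (fun i => he (α i) (g i)) (Finset.mem_univ e)).symm

lemma heM_add (α : ι → ℕ) (e : ι) (g : ι → ℝ) :
    heM (α + Pi.single e 1) g =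
      he (α e + 1) (g e) * ∏ i ∈ Finset.univ.erase e, he (α i) (g i) := by
  rw [heM_split _ e]
  congr 1
  · simp
  · refine Finset.prod_congr rfl fun i hi => ?_
    have : i ≠ e := Finset.ne_of_mem_erase hi
    simp [Pi.single_eq_of_ne this]

lemma heM_sub (α : ι → ℕ) (e : ι) (g : ι → ℝ) :
    heM (α - Pi.single e 1) g =
      he (α e - 1) (g e) * ∏ i ∈ Finset.univ.erase e, he (α i) (g i) := by
  rw [heM_split _ e]
  congr 1
  · simp
  · refine Finset.prod_congr rfl fun i hi => ?_
    have : i ≠ e := Finset.ne_of_mem_erase hi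
    simp [Pi.single_eq_of_ne this]

/-- multiplication by a coordinate -/
lemma coord_heM (α : ι → ℕ) (e : ι) (g : ι → ℝ) :
    g e * heM α g = heM (α + Pi.single e 1) g + (α e : ℝ) * heM (α - Pi.single e 1) g := by
  rw [heM_add, heM_sub, heM_split α e, ← mul_assoc, mul_he]
  ring

/-- the partial derivatives of a product Hermite polynomial -/
lemma heM_deriv (α : ι → ℕ) (e : ι) (g : ι → ℝ) (t : ℝ) :
    HasDerivAt (fun t => heM α (Function.update g e t))
      ((α e : ℝ) * heM (α - Pi.single e 1) (Function.update g e t)) t := by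
  have h1 : (fun t => heM α (Function.update g e t)) =
      fun t => he (α e) t * ∏ i ∈ Finset.univ.erase e, he (α i) (g i) := by
    funext t
    rw [heM_split α e, Function.update_self]
    congr 1
    refine Finset.prod_congr rfl fun i hi => ?_
    rw [Function.update_of_ne (Finset.ne_of_mem_erase hi)]
  have h2 : heM (α - Pi.single e 1) (Function.update g e t) =
      he (α e - 1) t * ∏ i ∈ Finset.univ.erase e, he (α i) (g i) := by
    rw [heM_sub, Function.update_self]
    congr 1
    refine Finset.prod_congr rfl fun i hi => ?_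
    rw [Function.update_of_ne (Finset.ne_of_mem_erase hi)]
  rw [h1, h2, ← mul_assoc]
  exact (hasDerivAt_he (α e) t).mul_const _

/-- multiplication of `A` by a coordinate -/
lemma co_coord {A : (ι → ℝ) → ℝ} (hA : Dom A) (α : ι → ℕ) (e : ι) :
    co (fun g => g e * A g) α =
      co A (α + Pi.single e 1) + (α e : ℝ) * co A (α - Pi.single e 1) := by
  unfold co
  rw [← integral_const_mul, ← int_add (hA.mul (dom_heM _)) ((hA.mul (dom_heM _)).const_mul _)]
  refine integral_congr_ae (Filter.Eventually.of_forall fun g => ?_)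
  simp only
  have := coord_heM α e g
  linear_combination (A g) * this

/-- **Integration by parts** for Hermite coefficients. -/
lemma co_ibp {A A' : (ι → ℝ) → ℝ} (hA : Dom A) (hA' : Dom A') (e : ι)
    (hd : ∀ g t, HasDerivAt (fun t => A (Function.update g e t)) (A' (Function.update g e t)) t)
    (α : ι → ℕ) : co A (α + Pi.single e 1) = co A' α := by
  have h1 := co_coord hA α e
  have hP : Dom (fun g => A g * heM α g) := hA.mul (dom_heM α)
  have hQ : Dom (fun g => A' g * heM α g + (α e : ℝ) * (A g * heM (α - Pi.single e 1) g)) :=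
    (hA'.mul (dom_heM α)).add ((hA.mul (dom_heM _)).const_mul _)
  have h2 := ibp e hP hQ (fun g t => by
    refine ((hd g t).mul (heM_deriv α e g t)).congr_deriv ?_
    ring)
  rw [int_add (hA'.mul (dom_heM α)) ((hA.mul (dom_heM _)).const_mul _), integral_const_mul] at h2
  have h3 : co (fun g => g e * A g) α = ∫ g, g e * (A g * heM α g) ∂(gpi ι) := by
    unfold co
    refine integral_congr_ae (Filter.Eventually.of_forall fun g => ?_)
    simp only
    ring
  rw [h3, h2] at h1
  unfold co at h1 ⊢
  linarith

omit [DecidableEq ι] in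
lemma co_zero_fun (α : ι → ℕ) : co (fun _ : ι → ℝ => (0 : ℝ)) α = 0 := by
  unfold co
  simp

omit [DecidableEq ι] in
lemma co_add {A B : (ι → ℝ) → ℝ} (hA : Dom A) (hB : Dom B) (α : ι → ℕ) :
    co (fun g => A g + B g) α = co A α + co B α := by
  unfold co
  rw [← int_add (hA.mul (dom_heM _)) (hB.mul (dom_heM _))]
  refine integral_congr_ae (Filter.Eventually.of_forall fun g => ?_)
  simp only
  ring

omit [DecidableEq ι] in
lemma co_sub {A B : (ι → ℝ) → ℝ} (hA : Dom A) (hB : Dom B) (α : ι → ℕ) :
    co (fun g => A g - B g) α = co A α - co B α := by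
  unfold co
  rw [← int_sub (hA.mul (dom_heM _)) (hB.mul (dom_heM _))]
  refine integral_congr_ae (Filter.Eventually.of_forall fun g => ?_)
  simp only
  ring

omit [DecidableEq ι] in
lemma co_const_mul (A : (ι → ℝ) → ℝ) (c : ℝ) (α : ι → ℕ) :
    co (fun g => c * A g) α = c * co A α := by
  unfold co
  rw [← integral_const_mul]
  refine integral_congr_ae (Filter.Eventually.of_forall fun g => ?_)
  simp only
  ring

omit [DecidableEq ι] in
lemma co_sum {κ : Type*} (s : Finset κ) {A : κ → (ι → ℝ) → ℝ} (hA : ∀ k ∈ s, Dom (A k))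
    (α : ι → ℕ) : co (fun g => ∑ k ∈ s, A k g) α = ∑ k ∈ s, co (A k) α := by
  unfold co
  rw [← int_sum s fun k hk => (hA k hk).mul (dom_heM α)]
  refine integral_congr_ae (Filter.Eventually.of_forall fun g => ?_)
  simp only
  rw [Finset.sum_mul]

/-- `E[he_α] = 0` for `α ≠ 0` -/
lemma int_heM (α : ι → ℕ) : ∫ g, heM α g ∂(gpi ι) = if α = 0 then 1 else 0 := by
  split_ifs with h
  · subst h
    have : (fun g : ι → ℝ => heM 0 g) = fun _ => (1 : ℝ) := by
      funext g
      simp [heM, he_zero]
    rw [this]
    simp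
  · obtain ⟨e, he'⟩ : ∃ e, α e ≠ 0 := by
      by_contra h'
      push Not at h'
      exact h (funext h')
    have h1 : α = (α - Pi.single e 1) + Pi.single e 1 := by
      funext x
      by_cases hx : x = e
      · subst hx
        simp
        omega
      · simp [Pi.single_eq_of_ne hx]
    have h2 := co_ibp (A := fun _ : ι → ℝ => (1 : ℝ)) (A' := fun _ => 0) (Dom.const 1)
      (Dom.const 0) e (fun g t => by simpa using hasDerivAt_const t (1 : ℝ)) (α - Pi.single e 1)
    rw [← h1, co_zero_fun] at h2
    unfold co at h2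
    simpa using h2

end multi

end Vale.Agent.P146.R2.H749
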