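import Vale.Agent.P146.R2.H952.XDef
import Vale.Agent.P146.R3.H49.SC

/-!
# P146: the Fejer kernel in the basis of the Chebyshev polynomials
-/

open MeasureTheory

namespace Vale.Agent.P146.R2.H749.X

open Vale.Agent.P146.R3 (chR chR_zero chR_one chR_succ_succ)
open Vale.Agent.P146.R2.H952.X (hR)

/-- `F_{l+2} = ∑_{j ≤ l} U_j + ∑_{j ≤ l+1} U_j` -/
noncomputable def Fj (l : ℕ) (x : ℝ) : ℝ :=
  ∑ j ∈ Finset.range (l + 1), chR j x + ∑ j ∈ Finset.range (l + 2), chR j x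

lemma tel (x : ℝ) (m : ℕ) :
    (2 - x) * ∑ j ∈ Finset.range (m + 1), chR j x = 1 + chR m x - chR (m + 1) x := by
  induction m with
  | zero => simp; ring
  | succ m ih =>
    rw [Finset.sum_range_succ, mul_add, ih, chR_succ_succ m x]
    ring

lemma Fj_mul (l : ℕ) (x : ℝ) : (2 - x) * Fj l x = 2 - (chR (l + 2) x - chR l x) := by
  have h1 := tel x l
  have h2 := tel x (l + 1)
  unfold Fj
  rw [mul_add, h1, h2]
  ring

lemma diff_cos (θ : ℝ) (l : ℕ) :
    chR (l + 2) (2 * Real.cos θ) - chR l (2 * Real.cos θ) = 2 * Real.cos (((l : ℝ) + 2) * θ) ∧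
    chR (l + 3) (2 * Real.cos θ) - chR (l + 1) (2 * Real.cos θ) =
      2 * Real.cos (((l : ℝ) + 3) * θ) := by
  induction l with
  | zero =>
    constructor
    · simp only [chR_succ_succ 0, chR_zero, chR_one, zero_add, Nat.cast_zero]
      rw [Real.cos_two_mul]
      ring
    · simp only [zero_add, Nat.cast_zero]
      rw [chR_succ_succ 1, chR_succ_succ 0, chR_zero, chR_one, Real.cos_three_mul]
      ring
  | succ l ih =>
    obtain ⟨h1, h2⟩ := ih
    refine ⟨?_, ?_⟩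
    · rw [show l + 1 + 2 = l + 3 by ring, h2]
      push_cast
      ring_nf
    · rw [show l + 1 + 3 = (l + 2) + 2 by ring, show l + 1 + 1 = l + 2 by ring,
        chR_succ_succ (l + 2)]
      rw [show l + 2 + 1 = l + 3 by ring]
      have e1 : chR (l + 2) (2 * Real.cos θ) = 2 * Real.cos θ * chR (l + 1) (2 * Real.cos θ) -
        chR l (2 * Real.cos θ) := chR_succ_succ l _
      have e2 : Real.cos (((l : ℝ) + 4) * θ) + Real.cos (((l : ℝ) + 2) * θ) =
          2 * Real.cos θ * Real.cos (((l : ℝ) + 3) * θ) := by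
        rw [show ((l : ℝ) + 4) * θ = ((l : ℝ) + 3) * θ + θ by ring,
          show ((l : ℝ) + 2) * θ = ((l : ℝ) + 3) * θ - θ by ring, Real.cos_add, Real.cos_sub]
        ring
      have e3 : (((l + 1 : ℕ) : ℝ) + 3) * θ = ((l : ℝ) + 4) * θ := by push_cast; ring
      rw [e3]
      linear_combination 2 * Real.cos θ * h2 - h1 - 2 * e2 - e1

lemma exists_angle {x : ℝ} (hx : x ∈ Set.Icc (-2 : ℝ) 2) :
    ∃ θ : ℝ, 0 ≤ θ ∧ θ ≤ Real.pi ∧ 2 * Real.cos θ = x := by
  refine ⟨Real.arccos (x / 2), Real.arccos_nonneg _, Real.arccos_le_pi _, ?_⟩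
  rw [Real.cos_arccos (by linarith [hx.1]) (by linarith [hx.2])]
  ring

lemma Fj_two (l : ℕ) : Fj l 2 = ((l : ℝ) + 2) ^ 2 := by
  have key : ∀ m : ℕ, ∑ j ∈ Finset.range m, chR j 2 = (m : ℝ) * (m + 1) / 2 := by
    intro m
    induction m with
    | zero => simp
    | succ m ih =>
      rw [Finset.sum_range_succ, ih, Vale.Agent.P146.R3.H49.chR_two]
      push_cast
      ring
  unfold Fj
  rw [key, key]
  push_cast
  ring

lemma Fj_cos (l : ℕ) (θ : ℝ) :
    (2 - 2 * Real.cos θ) * Fj l (2 * Real.cos θ) = 2 - 2 * Real.cos (((l : ℝ) + 2) * θ) := by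
  rw [Fj_mul, (diff_cos θ l).1]

lemma Fj_nonneg (l : ℕ) {x : ℝ} (hx : x ∈ Set.Icc (-2 : ℝ) 2) : 0 ≤ Fj l x := by
  rcases eq_or_lt_of_le hx.2 with h2 | h2
  · rw [h2, Fj_two]
    positivity
  obtain ⟨θ, -, -, hθ⟩ := exists_angle hx
  have h := Fj_cos l θ
  rw [hθ] at h
  have h1 : 0 < 2 - x := by linarith
  have h3 := Real.cos_le_one (((l : ℝ) + 2) * θ)
  refine nonneg_of_mul_nonneg_right (a := 2 - x) ?_ h1
  rw [h]
  linarith

lemma Fj_lower (l : ℕ) {x : ℝ} (hx : x ∈ Set.Icc (2 - 1 / ((l : ℝ) + 2) ^ 2) 2) :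
    ((l : ℝ) + 2) ^ 2 / 4 ≤ Fj l x := by
  have hL : (2 : ℝ) ≤ (l : ℝ) + 2 := by
    have : (0 : ℝ) ≤ l := Nat.cast_nonneg _
    linarith
  obtain ⟨L, hLe⟩ : ∃ L : ℝ, L = (l : ℝ) + 2 := ⟨_, rfl⟩
  rw [← hLe] at hx hL ⊢
  have hL0 : 0 < L := by linarith
  rcases eq_or_lt_of_le hx.2 with h2 | h2
  · rw [h2, Fj_two, ← hLe]
    nlinarith
  have hx2 : x ∈ Set.Icc (-2 : ℝ) 2 := by
    refine ⟨?_, hx.2⟩
    have h3 : 1 / L ^ 2 ≤ 1 := by
      rw [div_le_one (by positivity)]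
      nlinarith
    linarith [hx.1]
  obtain ⟨θ, hθ0, hθ1, hθ⟩ := exists_angle hx2
  have h := Fj_cos l θ
  rw [hθ, ← hLe] at h
  have hx0 : 0 < 2 - x := by linarith
  have hpi : 0 < Real.pi := Real.pi_pos
  -- the angle is small
  have h3 : 2 - x ≤ 1 / L ^ 2 := by linarith [hx.1]
  have h4 : 2 - x ≤ θ ^ 2 := by
    have := Real.one_sub_sq_div_two_le_cos (x := θ)
    rw [← hθ]
    linarith
  have h5 : 4 / Real.pi ^ 2 * θ ^ 2 ≤ 2 - x := by
    have := Real.cos_le_one_sub_mul_cos_sq (x := θ) (by rw [abs_of_nonneg hθ0]; exact hθ1)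
    rw [← hθ]
    have e : 2 / Real.pi ^ 2 * θ ^ 2 * 2 = 4 / Real.pi ^ 2 * θ ^ 2 := by ring
    linarith
  have h6 : (L * θ) ^ 2 ≤ Real.pi ^ 2 / 4 := by
    have h7 : 4 / Real.pi ^ 2 * θ ^ 2 ≤ 1 / L ^ 2 := h5.trans h3
    rw [le_div_iff₀ (by positivity), div_mul_eq_mul_div, div_mul_eq_mul_div,
      div_le_iff₀ (by positivity)] at h7
    nlinarith
  have h7 : |L * θ| ≤ Real.pi := by
    refine abs_le_of_sq_le_sq ?_ hpi.le
    have : 0 ≤ Real.pi ^ 2 := sq_nonneg _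
    linarith
  have h8 : 4 / Real.pi ^ 2 * (L * θ) ^ 2 ≤ 2 - 2 * Real.cos (L * θ) := by
    have := Real.cos_le_one_sub_mul_cos_sq (x := L * θ) h7
    have e : 2 / Real.pi ^ 2 * (L * θ) ^ 2 * 2 = 4 / Real.pi ^ 2 * (L * θ) ^ 2 := by ring
    linarith
  have h9 : 1 / 4 ≤ 4 / Real.pi ^ 2 := by
    rw [div_le_div_iff₀ (by norm_num) (by positivity)]
    have : Real.pi ≤ 4 := Real.pi_le_four
    nlinarith
  -- conclusion
  have h10 : (2 - x) * (L ^ 2 / 4) ≤ (2 - x) * Fj l x := by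
    rw [h]
    calc (2 - x) * (L ^ 2 / 4) ≤ θ ^ 2 * (L ^ 2 / 4) :=
          mul_le_mul_of_nonneg_right h4 (by positivity)
      _ = 1 / 4 * (L * θ) ^ 2 := by ring
      _ ≤ 4 / Real.pi ^ 2 * (L * θ) ^ 2 := mul_le_mul_of_nonneg_right h9 (sq_nonneg _)
      _ ≤ _ := h8
  exact le_of_mul_le_mul_left h10 hx0

lemma continuous_Fj (l : ℕ) : Continuous (Fj l) := by
  unfold Fj
  exact (continuous_finsetSum _ fun j _ => Vale.Agent.P146.R3.H49.continuous_chR j).add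
    (continuous_finsetSum _ fun j _ => Vale.Agent.P146.R3.H49.continuous_chR j)

/-- the coefficients of the Fejer kernel -/
noncomputable def cF (l : ℕ) (γ : ℝ) (k : ℕ) : ℝ :=
  γ * ((if k < l then 1 else 0) + (if k < l + 1 then 1 else 0))

lemma hR_cF (l : ℕ) (γ x : ℝ) : hR (l + 2) (cF l γ) x = γ * Fj l x - 2 * γ := by
  have e1 : ∀ m : ℕ, ∑ j ∈ Finset.range (m + 1), chR j x =
      1 + ∑ k ∈ Finset.range m, chR (k + 1) x := by
    intro m
    rw [Finset.sum_range_succ', chR_zero, add_comm]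
  have e2 : ∑ k ∈ Finset.range l, cF l γ k * chR (k + 1) x =
      2 * γ * ∑ k ∈ Finset.range l, chR (k + 1) x := by
    rw [Finset.mul_sum]
    refine Finset.sum_congr rfl fun k hk => ?_
    have h1 : k < l := Finset.mem_range.1 hk
    rw [cF, if_pos h1, if_pos (by omega)]
    ring
  unfold hR Fj
  rw [e1 l, show l + 2 = (l + 1) + 1 by ring, e1 (l + 1), Finset.sum_range_succ,
    Finset.sum_range_succ, e2, Finset.sum_range_succ]
  simp only [cF]
  rw [if_neg (lt_irrefl l), if_pos (by omega), if_neg (by omega), if_neg (by omega)]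
  ring

theorem stK : Vale.Agent.P146.R2.H952.X.StK := by
  intro L hL γ hγ
  obtain ⟨l, rfl⟩ : ∃ l, L = l + 2 := ⟨L - 2, by omega⟩
  refine ⟨cF l γ, fun x => γ * Fj l x, fun k => ?_, continuous_const.mul (continuous_Fj l),
    fun x => hR_cF l γ x, fun x hx => mul_nonneg hγ (Fj_nonneg l hx), fun x hx => ?_⟩
  · unfold cF
    constructor
    · refine mul_nonneg hγ ?_
      split_ifs <;> norm_num
    · have : ((if k < l then (1 : ℝ) else 0) + (if k < l + 1 then 1 else 0)) ≤ 2 := by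
        split_ifs <;> norm_num
      calc _ ≤ γ * 2 := mul_le_mul_of_nonneg_left this hγ
        _ = 2 * γ := by ring
  · push_cast at hx ⊢
    have := mul_le_mul_of_nonneg_left (Fj_lower l hx) hγ
    calc γ * ((l : ℝ) + 2) ^ 2 / 4 = γ * (((l : ℝ) + 2) ^ 2 / 4) := by ring
      _ ≤ _ := this

end Vale.Agent.P146.R2.H749.X
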