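import Vale.Agent.P146.R2.H749.Herm

/-!
# P146: Mehler's formula, orthogonality and the Bessel inequality at correlation `t`
-/

open MeasureTheory ProbabilityTheory

namespace Vale.Agent.P146.R2.H749

open Vale.Agent.P146 Vale.Agent.P146.Ub.Cv Vale.Agent.P146.H605 Vale.Agent.P146.R2

variable {ι : Type*} [Fintype ι]

omit [Fintype ι] in
lemma sub_add_single [DecidableEq ι] {α : ι → ℕ} {e : ι} (h : α e ≠ 0) :
    α - Pi.single e 1 + Pi.single e 1 = α := by
  funext x
  by_cases hx : x = e
  · subst hx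
    simp only [Pi.add_apply, Pi.sub_apply, Pi.single_eq_same]
    omega
  · simp [Pi.single_eq_of_ne hx]

lemma sum_add_single [DecidableEq ι] (α : ι → ℕ) (e : ι) :
    ∑ i, (α + Pi.single e 1 : ι → ℕ) i = ∑ i, α i + 1 := by
  simp [Finset.sum_add_distrib, Finset.sum_pi_single']

lemma sum_sub_single [DecidableEq ι] {α : ι → ℕ} {e : ι} (h : α e ≠ 0) :
    ∑ i, (α - Pi.single e 1 : ι → ℕ) i + 1 = ∑ i, α i := by
  rw [← sum_add_single, sub_add_single h]

lemma prod_fact_add [DecidableEq ι] (α : ι → ℕ) (e : ι) :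
    ∏ i, (((α + Pi.single e 1 : ι → ℕ) i).factorial : ℝ) =
      ((α e : ℝ) + 1) * ∏ i, ((α i).factorial : ℝ) := by
  have h3 : ∀ x, (((α + Pi.single e 1 : ι → ℕ) x).factorial : ℝ) =
      (if x = e then ((α e : ℝ) + 1) else 1) * ((α x).factorial : ℝ) := by
    intro x
    by_cases hx : x = e
    · subst hx
      rw [if_pos rfl, Pi.add_apply, Pi.single_eq_same, Nat.factorial_succ]
      push_cast
      ring
    · rw [if_neg hx, Pi.add_apply, Pi.single_eq_of_ne hx, add_zero, one_mul]
  rw [Finset.prod_congr rfl fun x _ => h3 x, Finset.prod_mul_distrib]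
  congr 1
  rw [Finset.prod_ite_eq' Finset.univ e (fun _ => (α e : ℝ) + 1)]
  simp

/-- **Mehler's formula**: `∫ he_α(c x + s y) dy = c^|α| he_α(x)` -/
lemma mehler [DecidableEq ι] {c s : ℝ} (hcs : c ^ 2 + s ^ 2 = 1) (x : ι → ℝ) :
    ∀ (N : ℕ) (α : ι → ℕ), ∑ i, α i ≤ N →
      ∫ y, heM α (mix c s x y) ∂(gpi ι) = c ^ (∑ i, α i) * heM α x := by
  have hc : |c| ≤ 1 := abs_le_one_iff_mul_self_le_one.2 (by nlinarith)
  have hs : |s| ≤ 1 := abs_le_one_iff_mul_self_le_one.2 (by nlinarith)
  intro N
  induction N using Nat.strong_induction_on with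
  | _ N ih =>
    intro α hα
    by_cases h0 : α = 0
    · subst h0
      simp [heM, he_zero]
    · obtain ⟨e, hae⟩ : ∃ e, α e ≠ 0 := by
        by_contra h'
        push Not at h'
        exact h0 (funext h')
      obtain ⟨b, hb⟩ : ∃ b, b = α - Pi.single e 1 := ⟨_, rfl⟩
      have hα' : α = b + Pi.single e 1 := by rw [hb, sub_add_single hae]
      have hsum : ∑ i, α i = ∑ i, b i + 1 := by rw [hα', sum_add_single]
      have hNpos : 0 < N := by omega
      have ihb := ih (N - 1) (by omega) b (by omega)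
      -- the derivative
      have hd : ∀ (y : ι → ℝ) (u : ℝ),
          HasDerivAt (fun u => heM b (mix c s x (Function.update y e u)))
            (s * ((b e : ℝ) * heM (b - Pi.single e 1) (mix c s x (Function.update y e u)))) u := by
        intro y u
        have h1 := heM_deriv b e (mix c s x y) (c * x e + s * u)
        have h2 : HasDerivAt (fun u : ℝ => c * x e + s * u) s u := by
          simpa using ((hasDerivAt_id u).const_mul s).const_add (c * x e)
        have h3 := HasDerivAt.comp u h1 h2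
        have h4 : ∀ u, Function.update (mix c s x y) e (c * x e + s * u) =
            mix c s x (Function.update y e u) := by
          intro u
          funext i
          by_cases hi : i = e
          · subst hi
            simp [mix_apply]
          · simp [mix_apply, Function.update_of_ne hi]
        have h5 : ((fun t => heM b (Function.update (mix c s x y) e t)) ∘
            fun u : ℝ => c * x e + s * u) =
            fun u => heM b (mix c s x (Function.update y e u)) := by
          funext u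
          simp only [Function.comp, h4]
        rw [h5, h4] at h3
        refine h3.congr_deriv ?_
        ring
      have hdb : Dom (fun y => heM b (mix c s x y)) := dom_fix (dom_heM b) hc hs x
      have hdb' : Dom (fun y => heM (b - Pi.single e 1) (mix c s x y)) :=
        dom_fix (dom_heM _) hc hs x
      have hibp := ibp e hdb ((hdb'.const_mul (b e : ℝ)).const_mul s) hd
      have key : ∀ y, heM α (mix c s x y) = (c * x e) * heM b (mix c s x y) +
          (s * (y e * heM b (mix c s x y)) -
            (b e : ℝ) * heM (b - Pi.single e 1) (mix c s x y)) := by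
        intro y
        have h1 := coord_heM b e (mix c s x y)
        rw [← hα', mix_apply] at h1
        linear_combination -h1
      simp_rw [key]
      have hY : Dom (fun y : ι → ℝ => y e * heM b (mix c s x y)) := (Dom.coord e).mul hdb
      rw [int_add (hdb.const_mul _) ((hY.const_mul _).sub (hdb'.const_mul _)),
        int_sub (hY.const_mul _) (hdb'.const_mul _), integral_const_mul, integral_const_mul,
        integral_const_mul, hibp, integral_const_mul, integral_const_mul, ihb]
      by_cases hbe : b e = 0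
      · have h1 := coord_heM b e x
        rw [← hα', hbe] at h1
        rw [hbe, hsum, pow_succ]
        simp only [Nat.cast_zero, zero_mul, mul_zero, add_zero, sub_zero] at h1 ⊢
        rw [← h1]
        ring
      · have hs2 := sum_sub_single hbe
        have ihb' := ih (N - 1) (by omega) (b - Pi.single e 1) (by omega)
        have h1 := coord_heM b e x
        rw [← hα'] at h1
        rw [ihb', hsum, ← hs2, pow_succ, pow_succ]
        have h2 : s ^ 2 = 1 - c ^ 2 := by linarith
        linear_combination (c ^ (∑ i, (b - Pi.single e 1 : ι → ℕ) i) * c * c) * h1 +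
          ((b e : ℝ) * c ^ (∑ i, (b - Pi.single e 1 : ι → ℕ) i) * heM (b - Pi.single e 1) x) * h2

/-- orthogonality -/
lemma orth [DecidableEq ι] : ∀ (N : ℕ) (α β : ι → ℕ), ∑ i, β i ≤ N →
    co (heM α) β = if α = β then ∏ i, ((β i).factorial : ℝ) else 0 := by
  intro N
  induction N with
  | zero =>
    intro α β hβ
    have h0 : β = 0 := by
      have h1 : ∑ i, β i = 0 := by omega
      rw [Finset.sum_eq_zero_iff] at h1
      exact funext fun i => h1 i (Finset.mem_univ i)
    subst h0
    have h1 : co (heM α) 0 = ∫ g, heM α g ∂(gpi ι) := by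
      unfold co
      simp [heM, he_zero]
    rw [h1, int_heM]
    simp
  | succ N ih =>
    intro α β hβ
    by_cases h0 : β = 0
    · exact ih α β (by rw [h0]; simp)
    · obtain ⟨e, hbe⟩ : ∃ e, β e ≠ 0 := by
        by_contra h'
        push Not at h'
        exact h0 (funext h')
      obtain ⟨b, hb⟩ : ∃ b, b = β - Pi.single e 1 := ⟨_, rfl⟩
      have hβ' : β = b + Pi.single e 1 := by rw [hb, sub_add_single hbe]
      have hsum : ∑ i, β i = ∑ i, b i + 1 := by rw [hβ', sum_add_single]
      rw [hβ', co_ibp (dom_heM α) ((dom_heM (α - Pi.single e 1)).const_mul (α e : ℝ)) e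
        (fun g t => heM_deriv α e g t) b, co_const_mul, ih _ b (by omega)]
      by_cases hae : α e = 0
      · have : α ≠ b + Pi.single e 1 := by
          intro h
          rw [h] at hae
          simp at hae
        rw [if_neg this, hae]
        simp
      · by_cases hab : α - Pi.single e 1 = b
        · have h1 : α = b + Pi.single e 1 := by rw [← hab, sub_add_single hae]
          rw [if_pos hab, if_pos h1, prod_fact_add]
          congr 1
          rw [h1]
          simp
        · have h1 : α ≠ b + Pi.single e 1 := by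
            intro h
            apply hab
            rw [h]
            funext x
            simp
          rw [if_neg hab, if_neg h1]
          simp

/-- the law of a pair of correlation `√t` is exchangeable -/
lemma swap_pair {t : ℝ} (h0 : 0 ≤ t) (h1 : t ≤ 1) {f : (ι → ℝ) × (ι → ℝ) → ℝ}
    (hf : Continuous f) :
    ∫ q : (ι → ℝ) × (ι → ℝ), f (q.1, mix (Real.sqrt t) (Real.sqrt (1 - t)) q.1 q.2)
        ∂((gpi ι).prod (gpi ι)) =
      ∫ q : (ι → ℝ) × (ι → ℝ), f (mix (Real.sqrt t) (Real.sqrt (1 - t)) q.1 q.2, q.1)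
        ∂((gpi ι).prod (gpi ι)) := by
  obtain ⟨r, hr⟩ : ∃ r, r = Real.sqrt t := ⟨_, rfl⟩
  have hr0 : 0 ≤ r := hr ▸ Real.sqrt_nonneg t
  have hr1 : r ≤ 1 := hr ▸ Real.sqrt_le_one.2 h1
  have hr2 : t = r ^ 2 := by rw [hr, Real.sq_sqrt h0]
  rw [← hr, hr2]
  have hp := mp_pair (ι := ι) hr0 hr1
  have m1 : Measurable (fun q : (ι → ℝ) × ((ι → ℝ) × (ι → ℝ)) =>
        ((fun i => Real.sqrt r * q.1 i + Real.sqrt (1 - r) * q.2.1 i),
          (fun i => Real.sqrt r * q.1 i + Real.sqrt (1 - r) * q.2.2 i))) := by fun_prop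
  have m2 : Measurable (fun q : (ι → ℝ) × (ι → ℝ) =>
        (q.1, fun i => r * q.1 i + Real.sqrt (1 - r ^ 2) * q.2 i)) := by fun_prop
  obtain ⟨μ, hμ⟩ : ∃ μ, μ = Measure.map (fun q : (ι → ℝ) × (ι → ℝ) =>
        (q.1, fun i => r * q.1 i + Real.sqrt (1 - r ^ 2) * q.2 i)) ((gpi ι).prod (gpi ι)) :=
    ⟨_, rfl⟩
  have hμ' : μ = Measure.map (fun q : (ι → ℝ) × ((ι → ℝ) × (ι → ℝ)) =>
        ((fun i => Real.sqrt r * q.1 i + Real.sqrt (1 - r) * q.2.1 i),
          (fun i => Real.sqrt r * q.1 i + Real.sqrt (1 - r) * q.2.2 i)))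
      ((gpi ι).prod ((gpi ι).prod (gpi ι))) := by rw [hμ]; exact hp.symm
  have hsw : MeasurePreserving (Prod.map (id : (ι → ℝ) → (ι → ℝ))
      (Prod.swap : (ι → ℝ) × (ι → ℝ) → (ι → ℝ) × (ι → ℝ)))
      ((gpi ι).prod ((gpi ι).prod (gpi ι))) ((gpi ι).prod ((gpi ι).prod (gpi ι))) :=
    (MeasurePreserving.id _).prod Measure.measurePreserving_swap
  have hms : Measure.map Prod.swap μ = μ := by
    rw [hμ', Measure.map_map measurable_swap m1]
    conv_rhs => rw [← hsw.map_eq, Measure.map_map m1 hsw.measurable]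
    rfl
  have a1 := integral_map (μ := (gpi ι).prod (gpi ι)) m2.aemeasurable
    (f := f) hf.aestronglyMeasurable
  have a2 := integral_map (μ := (gpi ι).prod (gpi ι)) m2.aemeasurable
    (f := fun p => f (Prod.swap p)) (hf.comp continuous_swap).aestronglyMeasurable
  have a3 := integral_map (μ := μ) measurable_swap.aemeasurable
    (f := f) hf.aestronglyMeasurable
  rw [hms] at a3
  rw [← hμ] at a1 a2
  exact a1.symm.trans (a3.trans a2)

/-- integrability of products -/
lemma int_fm {c s : ℝ} (hcs : c ^ 2 + s ^ 2 = 1) {f h : (ι → ℝ) → ℝ} (hf : Dom f) (hh : Dom h) :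
    Integrable (fun q : (ι → ℝ) × (ι → ℝ) => f (mix c s q.1 q.2) * h q.1)
      ((gpi ι).prod (gpi ι)) := by
  have i1 : Integrable (fun q : (ι → ℝ) × (ι → ℝ) => f (mix c s q.1 q.2) ^ 2)
      ((gpi ι).prod (gpi ι)) :=
    (mp_mix hcs).integrable_comp_of_integrable (hf.pow 2).integrable
  have i2 : Integrable (fun q : (ι → ℝ) × (ι → ℝ) => h q.1 ^ 2) ((gpi ι).prod (gpi ι)) :=
    (hh.pow 2).integrable.comp_fst _
  have cm : Continuous (fun q : (ι → ℝ) × (ι → ℝ) => f (mix c s q.1 q.2) * h q.1) :=
    (hf.cont.comp (cont_mix continuous_const continuous_const continuous_fst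
      continuous_snd)).mul (hh.cont.comp continuous_fst)
  refine Integrable.mono' (i1.add i2) cm.aestronglyMeasurable
    (Filter.Eventually.of_forall fun q => ?_)
  rw [Real.norm_eq_abs, abs_le]
  simp only [Pi.add_apply]
  constructor <;> nlinarith [sq_nonneg (f (mix c s q.1 q.2) - h q.1),
    sq_nonneg (f (mix c s q.1 q.2) + h q.1), sq_nonneg (f (mix c s q.1 q.2)),
    sq_nonneg (h q.1)]

/-- Hermite coefficients of the conditional expectation -/
lemma int_P_heM [DecidableEq ι] {A : (ι → ℝ) → ℝ} (hA : Dom A) {t : ℝ} (h0 : 0 ≤ t) (h1 : t ≤ 1)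
    (α : ι → ℕ) :
    ∫ z, (∫ y, A (mix (Real.sqrt t) (Real.sqrt (1 - t)) z y) ∂(gpi ι)) * heM α z ∂(gpi ι) =
      Real.sqrt t ^ (∑ i, α i) * co A α := by
  have hcs := sqrt_sq_add h0 h1
  have i1 := int_fm hcs hA (dom_heM α)
  have i2 := int_fm hcs (dom_heM α) hA
  have e1 : ∫ z, (∫ y, A (mix (Real.sqrt t) (Real.sqrt (1 - t)) z y) ∂(gpi ι)) * heM α z
      ∂(gpi ι) = ∫ q : (ι → ℝ) × (ι → ℝ),
        A (mix (Real.sqrt t) (Real.sqrt (1 - t)) q.1 q.2) * heM α q.1
          ∂((gpi ι).prod (gpi ι)) := by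
    rw [integral_prod _ i1]
    refine integral_congr_ae (Filter.Eventually.of_forall fun z => ?_)
    simp only
    rw [integral_mul_const]
  have e2 := swap_pair (ι := ι) h0 h1 (f := fun p => A p.2 * heM α p.1)
    ((hA.cont.comp continuous_snd).mul ((dom_heM α).cont.comp continuous_fst))
  simp only at e2
  rw [e1, e2]
  have i3 : Integrable (fun q : (ι → ℝ) × (ι → ℝ) =>
      A q.1 * heM α (mix (Real.sqrt t) (Real.sqrt (1 - t)) q.1 q.2)) ((gpi ι).prod (gpi ι)) := by
    refine i2.congr (Filter.Eventually.of_forall fun q => ?_)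
    simp only
    ring
  rw [integral_prod _ i3]
  unfold co
  rw [← integral_const_mul]
  refine integral_congr_ae (Filter.Eventually.of_forall fun x => ?_)
  simp only
  rw [integral_const_mul, mehler hcs x _ α le_rfl]
  ring

/-- **Bessel's inequality** at correlation `t`. -/
theorem bessel [DecidableEq ι] {A : (ι → ℝ) → ℝ} (hA : Dom A) {t : ℝ} (h0 : 0 ≤ t) (h1 : t ≤ 1)
    (S : Finset (ι → ℕ)) :
    ∑ α ∈ S, t ^ (∑ i, α i) / (∏ i, ((α i).factorial : ℝ)) * co A α ^ 2 ≤ QQ A t := by
  have hcs := sqrt_sq_add h0 h1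
  obtain ⟨P, hP⟩ : ∃ P : (ι → ℝ) → ℝ, P = fun x =>
    ∫ y, A (mix (Real.sqrt t) (Real.sqrt (1 - t)) x y) ∂(gpi ι) := ⟨_, rfl⟩
  obtain ⟨c, hc⟩ : ∃ c : (ι → ℕ) → ℝ, c = fun α =>
    Real.sqrt t ^ (∑ i, α i) * co A α / (∏ i, ((α i).factorial : ℝ)) := ⟨_, rfl⟩
  obtain ⟨p, hp⟩ : ∃ p : (ι → ℝ) → ℝ, p = fun z => ∑ α ∈ S, c α * heM α z := ⟨_, rfl⟩
  have iP2 : Integrable (fun x => P x ^ 2) (gpi ι) := by
    have h := (int_pair hA h0 h1).integral_prod_left
    refine h.congr (Filter.Eventually.of_forall fun z => ?_)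
    simp only
    rw [integral_prod_mul (fun y => A (mix (Real.sqrt t) (Real.sqrt (1 - t)) z y))
      (fun y => A (mix (Real.sqrt t) (Real.sqrt (1 - t)) z y)), hP, sq]
  have iPh : ∀ α : ι → ℕ, Integrable (fun x => P x * heM α x) (gpi ι) := by
    intro α
    have h := (int_fm hcs hA (dom_heM α)).integral_prod_left
    refine h.congr (Filter.Eventually.of_forall fun z => ?_)
    simp only
    rw [integral_mul_const, hP]
  have dp : Dom p := by
    rw [hp]
    exact Dom.sum S fun α _ => (dom_heM α).const_mul _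
  have iPp : Integrable (fun x => P x * p x) (gpi ι) := by
    have h : Integrable (fun x => ∑ α ∈ S, c α * (P x * heM α x)) (gpi ι) :=
      integrable_finsetSum _ fun α _ => (iPh α).const_mul _
    refine h.congr (Filter.Eventually.of_forall fun z => ?_)
    simp only
    rw [hp, Finset.mul_sum]
    refine Finset.sum_congr rfl fun α _ => ?_
    ring
  have e1 : ∫ x, P x * p x ∂(gpi ι) =
      ∑ α ∈ S, t ^ (∑ i, α i) / (∏ i, ((α i).factorial : ℝ)) * co A α ^ 2 := by
    have h2 : ∫ x, P x * p x ∂(gpi ι) = ∫ x, ∑ α ∈ S, c α * (P x * heM α x) ∂(gpi ι) := by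
      refine integral_congr_ae (Filter.Eventually.of_forall fun z => ?_)
      simp only
      rw [hp, Finset.mul_sum]
      refine Finset.sum_congr rfl fun α _ => ?_
      ring
    rw [h2, integral_finsetSum _ fun α _ => (iPh α).const_mul _]
    refine Finset.sum_congr rfl fun α _ => ?_
    rw [integral_const_mul, hP, int_P_heM hA h0 h1, hc]
    have h3 : Real.sqrt t ^ (∑ i, α i) * Real.sqrt t ^ (∑ i, α i) = t ^ (∑ i, α i) := by
      rw [← mul_pow, Real.mul_self_sqrt h0]
    rw [← h3]
    ring
  have e2 : ∫ x, p x ^ 2 ∂(gpi ι) =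
      ∑ α ∈ S, t ^ (∑ i, α i) / (∏ i, ((α i).factorial : ℝ)) * co A α ^ 2 := by
    have h2 : ∫ x, p x ^ 2 ∂(gpi ι) = ∫ x, ∑ α ∈ S, c α * (p x * heM α x) ∂(gpi ι) := by
      refine integral_congr_ae (Filter.Eventually.of_forall fun z => ?_)
      simp only
      have : p z = ∑ α ∈ S, c α * heM α z := by rw [hp]
      rw [sq]
      nth_rewrite 2 [this]
      rw [Finset.mul_sum]
      refine Finset.sum_congr rfl fun α _ => ?_
      ring
    rw [h2, int_sum S fun α _ => (dp.mul (dom_heM α)).const_mul _]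
    refine Finset.sum_congr rfl fun α hα => ?_
    rw [integral_const_mul]
    have h4 : ∫ x, p x * heM α x ∂(gpi ι) = c α * ∏ i, ((α i).factorial : ℝ) := by
      have h5 : co p α = ∑ β ∈ S, co (fun z => c β * heM β z) α := by
        rw [hp]
        exact co_sum S (fun β _ => (dom_heM β).const_mul _) α
      unfold co at h5
      rw [h5, Finset.sum_eq_single α]
      · have h6 := co_const_mul (heM α) (c α) α
        rw [orth _ α α le_rfl, if_pos rfl] at h6
        unfold co at h6
        exact h6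
      · intro β _ hβ
        have h6 := co_const_mul (heM β) (c β) α
        rw [orth _ β α le_rfl, if_neg hβ, mul_zero] at h6
        unfold co at h6
        exact h6
      · intro h
        exact absurd hα h
    rw [h4, hc]
    have h3 : Real.sqrt t ^ (∑ i, α i) * Real.sqrt t ^ (∑ i, α i) = t ^ (∑ i, α i) := by
      rw [← mul_pow, Real.mul_self_sqrt h0]
    have h7 : (∏ i, ((α i).factorial : ℝ)) ≠ 0 := by positivity
    rw [← h3]
    field_simp
  have e3 : QQ A t = ∫ x, P x ^ 2 ∂(gpi ι) := by rw [hP]; rfl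
  have h4 : 0 ≤ ∫ x, (P x - p x) ^ 2 ∂(gpi ι) := integral_nonneg fun x => sq_nonneg _
  have h5 : ∀ x, (P x - p x) ^ 2 = P x ^ 2 + ((-2) * (P x * p x) + p x ^ 2) := fun x => by ring
  simp_rw [h5] at h4
  have i6 : Integrable (fun x => (-2) * (P x * p x) + p x ^ 2) (gpi ι) :=
    (iPp.const_mul _).add (dp.pow 2).integrable
  rw [integral_add iP2 i6, integral_add (iPp.const_mul _) (dp.pow 2).integrable,
    integral_const_mul, e1, e2, ← e3] at h4
  linarith

end Vale.Agent.P146.R2.H749
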