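import Vale.Agent.P146.R2.H749.LevDefs
import Vale.Agent.P146.R2.H749.Bessel
import Vale.Agent.P146.H605.Noise

/-!
# P146: the Hermite levels of the free energy and the covariance of correlated copies
-/

open MeasureTheory ProbabilityTheory Finset

namespace Vale.Agent.P146.R2

open Vale.Agent.P146 Vale.Agent.P146.Ub.Cv Vale.Agent.P146.H605

lemma derivative_hermite (k : ℕ) : Polynomial.derivative (Polynomial.hermite (k + 1)) =
    ((k : Polynomial ℤ) + 1) * Polynomial.hermite k := by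
  induction k with
  | zero => simp [Polynomial.hermite_succ]
  | succ k ih =>
    rw [Polynomial.hermite_succ (k + 1)]
    rw [Polynomial.derivative_sub, Polynomial.derivative_mul, Polynomial.derivative_X, ih]
    have h : Polynomial.derivative (((k : Polynomial ℤ) + 1) * Polynomial.hermite k) =
        ((k : Polynomial ℤ) + 1) * Polynomial.derivative (Polynomial.hermite k) := by
      rw [Polynomial.derivative_mul]
      simp
    rw [h]
    have h2 := Polynomial.hermite_succ k
    push_cast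
    linear_combination (-(k : Polynomial ℤ) - 1) * h2

lemma he_eq (k : ℕ) (x : ℝ) : he k x = (Polynomial.hermite k).aeval x := by
  induction k using Nat.twoStepInduction with
  | zero => simp
  | one => simp
  | more k h1 h2 =>
    rw [he_succ_succ, h1, h2, Polynomial.hermite_succ (k + 1), derivative_hermite]
    simp

lemma heM_eq {ι : Type*} [Fintype ι] (α : ι → ℕ) (g : ι → ℝ) :
    heM α g = ∏ e, (Polynomial.hermite (α e)).aeval (g e) :=
  Finset.prod_congr rfl fun e _ => he_eq _ _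

variable (n : ℕ) (β : ℝ)

lemma hcoef_sq (α : Pair n → ℕ) :
    hcoef n β α ^ 2 = co (freeEnergy n β) α ^ 2 / ∏ e, ((α e).factorial : ℝ) := by
  unfold hcoef
  rw [div_pow, Real.sq_sqrt (by positivity)]
  congr 2
  unfold co
  simp only [heM_eq]
  rfl

lemma mem_levs {m : ℕ} {α : Pair n → ℕ} :
    α ∈ levs n m ↔ 1 ≤ ∑ e, α e ∧ ∑ e, α e ≤ m := by
  unfold levs
  rw [Finset.mem_filter, Fintype.mem_piFinset]
  refine ⟨fun h => h.2, fun h => ⟨fun i => ?_, h⟩⟩
  rw [Finset.mem_range]
  have h1 : α i ≤ ∑ e, α e :=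
    Finset.single_le_sum (f := fun e => α e) (fun _ _ => Nat.zero_le _) (Finset.mem_univ i)
  omega

lemma co_zero_idx (A : (Pair n → ℝ) → ℝ) : co A 0 = ∫ g, A g ∂(gpi (Pair n)) := by
  unfold co heM
  simp

/-- **The Hermite levels are controlled by the covariance of correlated copies.** -/
theorem levels_le {t : ℝ} (h0 : 0 ≤ t) (h1 : t ≤ 1) (m : ℕ) :
    ∑ α ∈ levs n m, t ^ (∑ e, α e) * hcoef n β α ^ 2 ≤ crossCov n β t := by
  have hz : (0 : Pair n → ℕ) ∉ levs n m := by
    rw [mem_levs]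
    simp
  have h2 := H749.bessel (freeEnergy_dom n β) h0 h1 (insert 0 (levs n m))
  rw [Finset.sum_insert hz] at h2
  have h3 : t ^ (∑ i, (0 : Pair n → ℕ) i) / (∏ i, (((0 : Pair n → ℕ) i).factorial : ℝ)) *
      co (freeEnergy n β) 0 ^ 2 = (∫ g, freeEnergy n β g ∂(gpi (Pair n))) ^ 2 := by
    rw [co_zero_idx]
    simp
  rw [h3] at h2
  rw [crossCov_QQ]
  have h4 : ∑ α ∈ levs n m, t ^ (∑ e, α e) * hcoef n β α ^ 2 =
      ∑ α ∈ levs n m, t ^ (∑ i, α i) / (∏ i, ((α i).factorial : ℝ)) *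
        co (freeEnergy n β) α ^ 2 := by
    refine Finset.sum_congr rfl fun α _ => ?_
    rw [hcoef_sq]
    ring
  rw [h4]
  linarith

lemma pow_ge_quarter (m : ℕ) (hm : 1 ≤ m) : (1 / 4 : ℝ) ≤ (1 - 1 / ((m : ℝ) + 1)) ^ m := by
  have hm0 : (0 : ℝ) < m := by exact_mod_cast hm
  have h1 : (1 + 1 / (m : ℝ)) ^ m ≤ 4 := by
    have h2 : 1 + 1 / (m : ℝ) ≤ Real.exp (1 / m) := by
      have := Real.add_one_le_exp (1 / (m : ℝ))
      linarith
    calc (1 + 1 / (m : ℝ)) ^ m ≤ Real.exp (1 / m) ^ m := pow_le_pow_left₀ (by positivity) h2 m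
      _ = Real.exp 1 := by
          rw [← Real.exp_nat_mul]
          congr 1
          field_simp
      _ ≤ 4 := by
          have := Real.exp_one_lt_d9
          linarith
  have h3 : 1 - 1 / ((m : ℝ) + 1) = (1 + 1 / (m : ℝ))⁻¹ := by
    field_simp
    ring
  rw [h3, inv_pow, one_div]
  exact inv_anti₀ (by positivity) h1

/-- the levels `1, …, m` together carry at most four times the covariance at correlation
`1 - 1/(m+1)` -/
theorem levelVar_le (m : ℕ) (hm : 1 ≤ m) :
    levelVar n β m ≤ 4 * crossCov n β (1 - 1 / ((m : ℝ) + 1)) := by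
  have hm0 : (0 : ℝ) < m := by exact_mod_cast hm
  have hp : (0 : ℝ) < (m : ℝ) + 1 := by linarith
  have h0 : 0 ≤ 1 - 1 / ((m : ℝ) + 1) := by
    rw [sub_nonneg, div_le_one hp]
    linarith
  have h1 : 1 - 1 / ((m : ℝ) + 1) ≤ 1 := by
    have : 0 < 1 / ((m : ℝ) + 1) := by positivity
    linarith
  have h2 := levels_le n β h0 h1 m
  have h3 : (1 / 4 : ℝ) * levelVar n β m ≤
      ∑ α ∈ levs n m, (1 - 1 / ((m : ℝ) + 1)) ^ (∑ e, α e) * hcoef n β α ^ 2 := by
    unfold levelVar
    rw [Finset.mul_sum]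
    refine Finset.sum_le_sum fun α hα => mul_le_mul_of_nonneg_right ?_ (sq_nonneg _)
    exact (pow_ge_quarter m hm).trans (pow_le_pow_of_le_one h0 h1 ((mem_levs n).1 hα).2)
  linarith

lemma levelVar_le_of {A : ℝ} (m : ℕ) (hm : 1 ≤ m)
    (h : crossCov n β (1 - 1 / ((m : ℝ) + 1)) ≤ A) : levelVar n β m ≤ 4 * A :=
  (levelVar_le n β m hm).trans (by linarith)

/-- the levels carry at most the variance -/
theorem levelVar_le_var (hn : 1 ≤ n) (m : ℕ) :
    levelVar n β m ≤ Var[freeEnergy n β; disorder n] := by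
  rw [← crossCov_one n β hn]
  have h := levels_le n β zero_le_one le_rfl m
  simpa [levelVar] using h

end Vale.Agent.P146.R2
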