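import Vale.Agent.P146.Defs
import Mathlib.RingTheory.Polynomial.Hermite.Basic

/-!
# P146: the Hermite coefficients of the free energy
-/

open MeasureTheory ProbabilityTheory

namespace Vale.Agent.P146.R2

/-- The coefficient of the free energy with respect to the orthonormal Hermite function
`∏ He_{α_e}(g_e) / √(α!)` of the disorder, where `He_k` are the probabilists' Hermite polynomials
and `α` is a multi-index indexed by the pairs. -/
noncomputable def hcoef (n : ℕ) (β : ℝ) (α : Pair n → ℕ) : ℝ :=
  (∫ g, freeEnergy n β g * ∏ e, (Polynomial.hermite (α e)).aeval (g e) ∂(disorder n)) /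
    Real.sqrt (∏ e, ((α e).factorial : ℝ))

/-- The multi-indices of total degree between `1` and `m`. -/
def levs (n m : ℕ) : Finset (Pair n → ℕ) :=
  (Fintype.piFinset fun _ => Finset.range (m + 1)).filter fun α =>
    1 ≤ ∑ e, α e ∧ ∑ e, α e ≤ m

/-- The part of the variance of the free energy carried by the Hermite levels `1, …, m`: the sum of
the squares of the coefficients of total degree between `1` and `m`. -/
noncomputable def levelVar (n : ℕ) (β : ℝ) (m : ℕ) : ℝ := ∑ α ∈ levs n m, hcoef n β α ^ 2

end Vale.Agent.P146.R2
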