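import Vale.Agent.P146.H605.Noise

/-!
# P146: from the pointwise bound of the cross overlap to the covariance of the free energies
-/

open MeasureTheory ProbabilityTheory

namespace Vale.Agent.P146.R2.H749

open Vale.Agent.P146.Ub.Cv Vale.Agent.P146.H605

lemma hasDerivAt_ratio {s : ℝ} (hs : s < 1) :
    HasDerivAt (fun s : ℝ => s / (1 - s) ^ 2) ((1 + s) / (1 - s) ^ 3) s := by
  have h1 : (1 - s) ≠ 0 := by linarith
  have h2 : HasDerivAt (fun s : ℝ => (1 - s) ^ 2) (2 * (1 - s) * (-1)) s := by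
    have h := ((hasDerivAt_id s).const_sub 1).fun_pow 2
    refine h.congr_deriv ?_
    simp
  refine ((hasDerivAt_id s).fun_div h2 (by positivity)).congr_deriv ?_
  simp only [id]
  field_simp
  ring

lemma cont_ratio {t : ℝ} (ht : t < 1) :
    ContinuousOn (fun s : ℝ => (1 + s) / (1 - s) ^ 3) (Set.uIcc 0 t) := by
  refine ContinuousOn.div (by fun_prop) (by fun_prop) fun s hs => ?_
  have h1 : s ≤ max 0 t := hs.2
  have h2 : s < 1 := h1.trans_lt (max_lt one_pos ht)
  have h3 : (1 - s) ≠ 0 := by linarith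
  positivity

lemma integral_ratio {t : ℝ} (ht : t < 1) :
    ∫ s in (0 : ℝ)..t, (1 + s) / (1 - s) ^ 3 = t / (1 - t) ^ 2 := by
  rw [intervalIntegral.integral_eq_sub_of_hasDerivAt (f := fun s : ℝ => s / (1 - s) ^ 2)]
  · simp
  · intro s hs
    have h1 : s ≤ max 0 t := hs.2
    exact hasDerivAt_ratio (h1.trans_lt (max_lt one_pos ht))
  · exact (cont_ratio ht).intervalIntegrable

/-- **(CC)** a pointwise bound of `n E ⟨R²⟩_s` on `[0, t]` gives the covariance of the two free
energies. -/
theorem crossCov_le (n : ℕ) (β : ℝ) (hn : 1 ≤ n) {t e : ℝ} (h0 : 0 ≤ t) (h1 : t < 1)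
    (h : ∀ s : ℝ, 0 ≤ s → s ≤ t → n * crossOverlap n β s ≤ (1 + e) * (1 + s) / (1 - s) ^ 3) :
    crossCov n β t ≤ β ^ 2 / 2 * ((1 + e) * t / (1 - t) ^ 2 - t) := by
  rw [crossCov_formula n β hn h0 h1.le]
  have hi := prof_intervalIntegrable n β hn le_rfl h0 h1.le
  have hj : IntervalIntegrable (fun s : ℝ => (1 + s) / (1 - s) ^ 3) volume 0 t :=
    (cont_ratio h1).intervalIntegrable
  have h2 : ∫ a in (0 : ℝ)..t, prof n β a ≤
      ∫ a in (0 : ℝ)..t, β ^ 2 / 2 * ((1 + e) * ((1 + a) / (1 - a) ^ 3) - 1) := by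
    refine intervalIntegral.integral_mono_on h0 hi ?_ fun a ha => ?_
    · exact ((hj.const_mul _).sub intervalIntegrable_const).const_mul _
    · have h3 := h a ha.1 ha.2
      unfold prof
      refine mul_le_mul_of_nonneg_left ?_ (by positivity)
      rw [← mul_div_assoc]
      linarith
  refine h2.trans (le_of_eq ?_)
  rw [intervalIntegral.integral_const_mul, intervalIntegral.integral_sub (hj.const_mul _)
    intervalIntegrable_const, intervalIntegral.integral_const_mul, integral_ratio h1]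
  simp only [intervalIntegral.integral_const, sub_zero, smul_eq_mul, mul_one]
  rw [mul_div_assoc]

end Vale.Agent.P146.R2.H749
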