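import Vale.Agent.P146.R2.H749.FamDef

/-!
# P146: properties of the two families; the cross overlap and the low degree part
-/

open MeasureTheory ProbabilityTheory Finset

namespace Vale.Agent.P146.R2

open Vale.Agent.P146 Vale.Agent.P146.Ub.Cv Vale.Agent.P146.H605 Vale.Agent.P146.H453

variable {n : ℕ} (β : ℝ)

/-- the recursion for the first family -/
theorem CC_rec (j : Fin n) (k : ℕ) :
    CC β j (k + 1) = up (CC β j k) + dn (CC β j k) - pv (CC β j) k :=
  H749.cf_cheb (M := fun k g => H432.cheb k (H432.WW g)) (fun _ => rfl) (fun _ => rfl)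
    (fun _ _ => rfl) (fun k i j => H432.dom_cheb k i j) (fun u => f2_dom β j u) k

lemma CC_zero (j : Fin n) : CC β j 0 = fun v α => co (f2 β j v) α :=
  H749.cf_cheb_zero (M := fun k g => H432.cheb k (H432.WW g)) (fun _ => rfl) (f2 β j)

/-- exchangeability -/
theorem equi_CC (j : Fin n) : Equi {j} (CC β j 0) := by
  rw [CC_zero]
  exact equi_f2 β j

lemma sp_sv (u v : Fin n) (σ : Fin n → ℤˣ) :
    sp (sv u * σ) v = (-1 : ℝ) ^ (if u = v then 1 else 0) * sp σ v := by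
  by_cases h : u = v
  · subst h
    rw [sp_sv_self, if_pos rfl]
    ring
  · rw [sp_sv_ne (Ne.symm h), if_neg h]
    ring

lemma f2_flip_gen (u v j : Fin n) (g : Pair n → ℝ) :
    f2 β j v (Gauge.flip (sv u) g) =
      (-1 : ℝ) ^ ((if u = v then 1 else 0) + (if u = j then 1 else 0)) * f2 β j v g := by
  unfold f2
  rw [avf_flip, avf_eq, avf_eq, Finset.mul_sum]
  refine Finset.sum_congr rfl fun σ _ => ?_
  rw [sp_sv, sp_sv, pow_add]
  ring

/-- gauge parity -/
theorem par_CC (j : Fin n) : Par j (CC β j 0) := by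
  rw [CC_zero]
  intro v α hα u
  by_contra hodd
  rw [Nat.not_even_iff_odd] at hodd
  apply hα
  have hm := Gauge.measurePreserving_flip (sv u)
  have hc : Continuous fun g => f2 β j v g * heM α g :=
    (f2_dom β j v).cont.mul (continuous_heM α)
  have h1 := integral_map (μ := disorder n) hm.measurable.aemeasurable
    (f := fun g => f2 β j v g * heM α g) hc.aestronglyMeasurable
  rw [hm.map_eq] at h1
  have h2 : ∀ g, f2 β j v (Gauge.flip (sv u) g) * heM α (Gauge.flip (sv u) g) =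
      - (f2 β j v g * heM α g) := by
    intro g
    rw [f2_flip_gen β, heM_flip, prod_sg_sv]
    have h3 : (-1 : ℝ) ^ ((if u = v then 1 else 0) + (if u = j then 1 else 0)) *
        (-1) ^ deg α u = -1 := by
      rw [← pow_add, Odd.neg_one_pow]
      convert hodd using 1
      ring
    linear_combination (f2 β j v g * heM α g) * h3
  simp_rw [h2] at h1
  rw [integral_neg] at h1
  have h3 : co (f2 β j v) α = ∫ g, f2 β j v g * heM α g ∂(disorder n) := rfl
  simp only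
  rw [h3]
  linarith

lemma g1_dom (j : Fin n) (e₁ : Pair n) (u : Fin n) : Dom (H757.g1 β j e₁ u) :=
  (H757.rav_dom β _).const_mul _

lemma g2_dom (j : Fin n) (e₁ e₂ : Pair n) (u : Fin n) : Dom (H757.g2 β j e₁ e₂ u) :=
  (H757.rav_dom β _).const_mul _

lemma g3_dom (j : Fin n) (e₁ e₂ e₃ : Pair n) (u : Fin n) : Dom (H757.g3 β j e₁ e₂ e₃ u) :=
  (H757.rav_dom β _).const_mul _

/-- the recursion for the second family -/
theorem GG_rec (j v : Fin n) (e₁ e₂ e₃ : Pair n) (k : ℕ) :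
    GG β j v e₁ e₂ e₃ (k + 1) =
      up (GG β j v e₁ e₂ e₃ k) + dn (GG β j v e₁ e₂ e₃ k) - pv (GG β j v e₁ e₂ e₃) k :=
  H749.cf_cheb (M := fun k g => H432.cheb k (H432.WW g)) (fun _ => rfl) (fun _ => rfl)
    (fun _ _ => rfl) (fun k i j => H432.dom_cheb k i j) (fun u => g3_dom β j e₁ e₂ e₃ u) k

/-- the initial value of the second family -/
theorem GG_zero (j v : Fin n) (e₁ e₂ e₃ : Pair n) :
    GG β j v e₁ e₂ e₃ 0 = fun i α => CC β j 0 i (α + un e₁ + un e₂ + un e₃) := by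
  rw [CC_zero]
  have h1 : GG β j v e₁ e₂ e₃ 0 = fun i α => co (H757.g3 β j e₁ e₂ e₃ i) α :=
    H749.cf_cheb_zero (M := fun k g => H432.cheb k (H432.WW g)) (fun _ => rfl)
      (H757.g3 β j e₁ e₂ e₃)
  rw [h1]
  funext i α
  have h2 := H749.co_ibp3 (f2_dom β j i) (g1_dom β j e₁ i) (g2_dom β j e₁ e₂ i)
    (g3_dom β j e₁ e₂ e₃ i) e₃ e₂ e₁ (fun g t => H757.deriv_g1 β j i e₁ g t)
    (fun g t => H757.deriv_g2 β j i e₁ e₂ g t) (fun g t => H757.deriv_g3 β j i e₁ e₂ e₃ g t) α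
  rw [← h2]
  congr 1
  rw [add_assoc, add_assoc, add_assoc, add_assoc]
  congr 1
  rw [add_comm (un e₂) (un e₁), ← add_assoc, ← add_assoc, add_comm (un e₃) (un e₁),
    add_assoc, add_assoc, add_comm (un e₃) (un e₂)]

/-! ### the cross overlap -/

lemma QQ_f2_self (j : Fin n) {t : ℝ} : QQ (f2 β j j) t = 1 := by
  have h : f2 β j j = fun _ => 1 := by
    funext g
    unfold f2
    have h1 : (fun σ : Fin n → ℤˣ => sp σ j * sp σ j) = fun _ => 1 := by
      funext σ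
      have := abs_sp σ j
      rcases abs_eq (zero_le_one' ℝ) |>.1 this with h | h <;> rw [h] <;> ring
    rw [h1]
    exact gav_const _ _ 1 g
  rw [h]
  unfold QQ
  simp

lemma QQ_f2_pair (p : Pair n) {t : ℝ} :
    QQ (f2 β p.1.2 p.1.1) t = ∫ z, cm n β t p z ^ 2 ∂(disorder n) := by
  have h : f2 β p.1.2 p.1.1 = av n β (ps p) := by
    funext g
    unfold f2 av
    congr 1
    funext σ
    rw [chi_ps]
  rw [h]
  rfl

lemma f2_symm (i j : Fin n) : f2 β i j = f2 β j i := by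
  funext g
  unfold f2
  congr 1
  funext σ
  rw [mul_comm]

theorem crossOverlap_QQ (hn : 1 ≤ n) {t : ℝ} (h0 : 0 ≤ t) (h1 : t ≤ 1) :
    n * crossOverlap n β t = (n : ℝ)⁻¹ * ∑ j : Fin n, ∑ v : Fin n, QQ (f2 β j v) t := by
  have hn0 : (0 : ℝ) < n := by exact_mod_cast hn
  have h2 := Vale.Agent.P150.sum_pairs (n := n) fun j v => QQ (f2 β j v) t
  have h3 : ∀ p : Pair n, QQ (f2 β p.1.1 p.1.2) t + QQ (f2 β p.1.2 p.1.1) t =
      2 * ∫ z, cm n β t p z ^ 2 ∂(disorder n) := by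
    intro p
    rw [f2_symm β p.1.1 p.1.2, QQ_f2_pair]
    ring
  have h4 : ∑ p : Vale.Agent.P150.Pairs n, (QQ (f2 β p.1.1 p.1.2) t + QQ (f2 β p.1.2 p.1.1) t) =
      ∑ p : Pair n, 2 * ∫ z, cm n β t p z ^ 2 ∂(disorder n) :=
    Finset.sum_congr rfl fun p _ => h3 p
  rw [h2, h4, crossOverlap_eq n β hn h0 h1, ← Finset.mul_sum]
  simp only [QQ_f2_self, Finset.sum_const, Finset.card_univ, Fintype.card_fin, nsmul_eq_mul,
    mul_one]
  field_simp
  ring

lemma int_f2_sq (j v : Fin n) : ∫ y, f2 β j v y ^ 2 ∂(gpi (Pair n)) ≤ 1 := by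
  have hi := ((f2_dom β j v).pow 2).integrable
  have h1 := integral_mono hi (integrable_const (1 : ℝ)) fun y => by
    have h2 := abs_f2_le β j v y
    rw [← sq_abs]
    exact pow_le_one₀ (abs_nonneg _) h2
  simpa using h1

lemma smo_f2 (k : ℕ) (j v : Fin n) : H432.Smo k (f2 β j v) := H432.smo_gav _ _ k _

/-- **The low degree part.** -/
theorem crossOverlap_low (hn : 1 ≤ n) {t : ℝ} (h0 : 0 ≤ t) (h1 : t ≤ 1) (L : ℕ) :
    n * crossOverlap n β t ≤ n * t ^ (L + 1) + (n : ℝ)⁻¹ * ∑ j : Fin n, ns t L (CC β j 0) := by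
  have hn0 : (0 : ℝ) < n := by exact_mod_cast hn
  rw [crossOverlap_QQ β hn h0 h1]
  have h2 : ∀ j v : Fin n, QQ (f2 β j v) t ≤ nv t L (CC β j 0) v + t ^ (L + 1) := by
    intro j v
    have h3 := H432.tail L (smo_f2 β (L + 3) j v) h0 h1
    have h4 : t ^ (L + 1) * ∫ y, f2 β j v y ^ 2 ∂(gpi (Pair n)) ≤ t ^ (L + 1) * 1 :=
      mul_le_mul_of_nonneg_left (int_f2_sq β j v) (by positivity)
    have h5 : nv t L (CC β j 0) v = ∑ α ∈ ML n L, H453.wt t α * co (f2 β j v) α ^ 2 := by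
      unfold nv
      rw [CC_zero]
    rw [h5]
    linarith
  have h3 : ∑ j : Fin n, ∑ v : Fin n, QQ (f2 β j v) t ≤
      ∑ j : Fin n, ∑ v : Fin n, (nv t L (CC β j 0) v + t ^ (L + 1)) :=
    Finset.sum_le_sum fun j _ => Finset.sum_le_sum fun v _ => h2 j v
  have h4 : ∑ j : Fin n, ∑ v : Fin n, (nv t L (CC β j 0) v + t ^ (L + 1)) =
      ∑ j : Fin n, ns t L (CC β j 0) + n * (n * t ^ (L + 1)) := by
    simp only [Finset.sum_add_distrib, Finset.sum_const, Finset.card_univ, Fintype.card_fin,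
      nsmul_eq_mul]
    rfl
  rw [h4] at h3
  calc (n : ℝ)⁻¹ * ∑ j : Fin n, ∑ v : Fin n, QQ (f2 β j v) t ≤
      (n : ℝ)⁻¹ * (∑ j : Fin n, ns t L (CC β j 0) + n * (n * t ^ (L + 1))) :=
        mul_le_mul_of_nonneg_left h3 (by positivity)
    _ = n * t ^ (L + 1) + (n : ℝ)⁻¹ * ∑ j : Fin n, ns t L (CC β j 0) := by
        field_simp
        ring

end Vale.Agent.P146.R2
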