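import Mathlib

/-!
# P146: the choice of the degree of the kernel
-/

namespace Vale.Agent.P146.R2.H749

/-- If a family of statements holds at the scales `c₃ L^(-5/2)` with the rates `C / L^6`, and is
monotone, then it holds at every small scale `s` with the rate `C' s^(12/5)`. -/
theorem choose_L {c3 C : ℝ} (hc : 0 < c3) (hC : 0 < C) (L0 : ℕ) (E : ℝ → ℝ → Prop)
    (hmono : ∀ s s' Q Q', s' ≤ s → Q ≤ Q' → E s Q → E s' Q')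
    (h : ∀ L : ℕ, L0 ≤ L → 0 < L → E (c3 * (L : ℝ) ^ (-(5 : ℝ) / 2)) (C / (L : ℝ) ^ 6)) :
    ∃ C' δ : ℝ, 0 < C' ∧ 0 < δ ∧ ∀ s, 0 < s → s ≤ δ → E s (C' * s ^ ((12 : ℝ) / 5)) := by
  refine ⟨64 * C / c3 ^ ((12 : ℝ) / 5), c3 * ((L0 : ℝ) + 1) ^ (-(5 : ℝ) / 2), by positivity,
    by positivity, fun s hs hsd => ?_⟩
  obtain ⟨t, ht⟩ : ∃ t : ℝ, t = (c3 / s) ^ ((2 : ℝ) / 5) := ⟨_, rfl⟩
  have hcs : 0 < c3 / s := by positivity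
  have ht0 : 0 < t := by rw [ht]; positivity
  have hL1 : (0 : ℝ) < (L0 : ℝ) + 1 := by positivity
  -- `t ≥ L₀ + 1`
  have ht1 : (L0 : ℝ) + 1 ≤ t := by
    have h1 : ((L0 : ℝ) + 1) ^ ((5 : ℝ) / 2) ≤ c3 / s := by
      rw [le_div_iff₀ hs]
      calc ((L0 : ℝ) + 1) ^ ((5 : ℝ) / 2) * s ≤
            ((L0 : ℝ) + 1) ^ ((5 : ℝ) / 2) * (c3 * ((L0 : ℝ) + 1) ^ (-(5 : ℝ) / 2)) :=
            mul_le_mul_of_nonneg_left hsd (by positivity)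
        _ = c3 * (((L0 : ℝ) + 1) ^ ((5 : ℝ) / 2) * ((L0 : ℝ) + 1) ^ (-(5 : ℝ) / 2)) := by ring
        _ = c3 := by
            rw [← Real.rpow_add hL1]
            norm_num
    have h2 := Real.rpow_le_rpow (by positivity) h1 (show (0 : ℝ) ≤ 2 / 5 by norm_num)
    rw [← Real.rpow_mul hL1.le, ← ht] at h2
    norm_num at h2
    exact h2
  have htL0 : 1 ≤ t := by
    have : (0 : ℝ) ≤ L0 := Nat.cast_nonneg _
    linarith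
  -- the degree
  have hf1 : (⌊t⌋₊ : ℝ) ≤ t := Nat.floor_le ht0.le
  have hf2 : t < (⌊t⌋₊ : ℝ) + 1 := Nat.lt_floor_add_one t
  have hf3 : 1 ≤ ⌊t⌋₊ := (Nat.one_le_floor_iff t).2 htL0
  have hf4 : (1 : ℝ) ≤ (⌊t⌋₊ : ℝ) := by exact_mod_cast hf3
  have hf5 : L0 ≤ ⌊t⌋₊ := Nat.le_floor (by linarith)
  have hf0 : (0 : ℝ) < (⌊t⌋₊ : ℝ) := by linarith
  refine hmono _ _ _ _ ?_ ?_ (h _ hf5 hf3)
  · -- the scale
    have h1 : t ^ (-(5 : ℝ) / 2) ≤ (⌊t⌋₊ : ℝ) ^ (-(5 : ℝ) / 2) :=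
      Real.rpow_le_rpow_of_nonpos hf0 hf1 (by norm_num)
    have h2 : t ^ (-(5 : ℝ) / 2) = s / c3 := by
      rw [ht, ← Real.rpow_mul hcs.le, show (2 : ℝ) / 5 * (-(5 : ℝ) / 2) = -1 by norm_num,
        Real.rpow_neg_one, inv_div]
    rw [h2, div_le_iff₀ hc] at h1
    linarith
  · -- the rate
    have h1 : t ≤ 2 * (⌊t⌋₊ : ℝ) := by linarith
    have h2 : t ^ 6 ≤ 64 * (⌊t⌋₊ : ℝ) ^ 6 := by
      calc t ^ 6 ≤ (2 * (⌊t⌋₊ : ℝ)) ^ 6 := pow_le_pow_left₀ ht0.le h1 6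
        _ = _ := by ring
    have h3 : t ^ 6 = c3 ^ ((12 : ℝ) / 5) / s ^ ((12 : ℝ) / 5) := by
      rw [ht, ← Real.rpow_natCast, ← Real.rpow_mul hcs.le, Real.div_rpow hc.le hs.le]
      norm_num
    rw [h3] at h2
    have hs5 : 0 < s ^ ((12 : ℝ) / 5) := by positivity
    have hc5 : 0 < c3 ^ ((12 : ℝ) / 5) := by positivity
    rw [div_mul_eq_mul_div, div_le_div_iff₀ (by positivity) hc5]
    rw [div_le_iff₀ hs5] at h2
    nlinarith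

end Vale.Agent.P146.R2.H749
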