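import Vale.Agent.P146.R2.H749.Rec
import Vale.Agent.P150.Bdl.B1

/-!
# P146: the Chebyshev recursion for matrices applied to a vector of functions of the disorder
-/

open MeasureTheory ProbabilityTheory Finset

namespace Vale.Agent.P146.R2.H749

open Vale.Agent.P146 Vale.Agent.P146.Ub.Cv Vale.Agent.P146.H605 Vale.Agent.P146.R2
open Vale.Agent.P150 Vale.Agent.P150.F

variable {n : ℕ}

lemma gsym_ot {v : Fin n} {e : Pair n} (h : e ∈ H453.st v) (g : Pair n → ℝ) :
    gsym g v (H453.ot v e) = g e := by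
  have h2 := e.2
  rw [H453.mem_st] at h
  unfold H453.ot
  by_cases h1 : e.1.1 = v
  · rw [if_pos h1, ← h1]
    exact gsym_pair g e
  · rw [if_neg h1]
    have h3 : e.1.2 = v := h.resolve_left h1
    rw [← h3]
    exact gsym_pair' g e

/-- `wm` is multiplication by the matrix `skM g` -/
lemma wm_eq (A : Fin n → (Pair n → ℝ) → ℝ) (v : Fin n) (g : Pair n → ℝ) :
    wm A v g = ∑ u, skM g v u * A u g := by
  have h1 : ∑ u, skM g v u * A u g = ∑ u ∈ univ.erase v, skM g v u * A u g := by
    rw [← Finset.add_sum_erase univ _ (mem_univ v)]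
    have : skM g v v = 0 := by
      unfold skM
      rw [gsym_self, zero_div]
    rw [this, zero_mul, zero_add]
  rw [h1, ← H453.sum_st_ot v fun u => skM g v u * A u g]
  unfold wm
  rw [Finset.mul_sum]
  refine Finset.sum_congr rfl fun e he => ?_
  unfold skM
  rw [gsym_ot he]
  ring

/-- **The recursion of the coefficients** of `U_k(W) F`. -/
theorem cf_cheb {M : ℕ → (Pair n → ℝ) → Matrix (Fin n) (Fin n) ℝ} (h0 : ∀ g, M 0 g = 1)
    (h1 : ∀ g, M 1 g = skM g) (h2 : ∀ k g, M (k + 2) g = skM g * M (k + 1) g - M k g)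
    (hM : ∀ k i j, Dom (fun g => M k g i j)) {F : Fin n → (Pair n → ℝ) → ℝ}
    (hF : ∀ u, Dom (F u)) (k : ℕ) :
    cf (fun v g => ∑ u, M (k + 1) g v u * F u g) =
      H453.up (cf (fun v g => ∑ u, M k g v u * F u g)) +
        H453.dn (cf (fun v g => ∑ u, M k g v u * F u g)) -
        H453.pv (fun k => cf (fun v g => ∑ u, M k g v u * F u g)) k := by
  refine cf_rec (A := fun k v g => ∑ u, M k g v u * F u g) ?_ ?_ ?_ k
  · intro k v
    exact Dom.sum _ fun u _ => (hM k v u).mul (hF u)
  · intro v g
    have h3 : ∀ u, ∑ w, M 0 g u w * F w g = F u g := by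
      intro u
      rw [h0, Finset.sum_eq_single u]
      · rw [Matrix.one_apply_eq, one_mul]
      · intro w _ hw
        rw [Matrix.one_apply_ne hw.symm, zero_mul]
      · intro h
        exact absurd (mem_univ _) h
    have h4 : ∑ u, M 1 g v u * F u g = ∑ u, skM g v u * ∑ w, M 0 g u w * F w g := by
      refine Finset.sum_congr rfl fun u _ => ?_
      rw [h1, h3]
    exact h4.trans (wm_eq (fun u g => ∑ w, M 0 g u w * F w g) v g).symm
  · intro k v g
    have e : ∀ u, M (k + 2) g v u = (∑ w, skM g v w * M (k + 1) g w u) - M k g v u := by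
      intro u
      have h3 : M (k + 2) g v u = (skM g * M (k + 1) g - M k g) v u := by rw [h2]
      rw [h3, Matrix.sub_apply, Matrix.mul_apply]
    have e2 : ∑ u, M (k + 2) g v u * F u g =
        ∑ u, (∑ w, skM g v w * M (k + 1) g w u) * F u g - ∑ u, M k g v u * F u g := by
      rw [← Finset.sum_sub_distrib]
      refine Finset.sum_congr rfl fun u _ => ?_
      rw [e]
      ring
    have e3 : ∑ u, (∑ w, skM g v w * M (k + 1) g w u) * F u g =
        ∑ w, skM g v w * ∑ u, M (k + 1) g w u * F u g := by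
      have e4 : ∀ u, (∑ w, skM g v w * M (k + 1) g w u) * F u g =
          ∑ w, skM g v w * (M (k + 1) g w u * F u g) := by
        intro u
        rw [Finset.sum_mul]
        exact Finset.sum_congr rfl fun w _ => mul_assoc _ _ _
      rw [Finset.sum_congr rfl fun u _ => e4 u, Finset.sum_comm]
      exact Finset.sum_congr rfl fun w _ => (Finset.mul_sum _ _ _).symm
    have e5 := wm_eq (fun u g => ∑ w, M (k + 1) g u w * F w g) v g
    have e6 : ∑ u, M (k + 2) g v u * F u g =
        wm (fun u g => ∑ w, M (k + 1) g u w * F w g) v g - ∑ u, M k g v u * F u g := by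
      rw [e2, e3, e5]
    exact e6

/-- at level zero -/
lemma cf_cheb_zero {M : ℕ → (Pair n → ℝ) → Matrix (Fin n) (Fin n) ℝ} (h0 : ∀ g, M 0 g = 1)
    (F : Fin n → (Pair n → ℝ) → ℝ) : cf (fun v g => ∑ u, M 0 g v u * F u g) = cf F := by
  have : (fun v g => ∑ u, M 0 g v u * F u g) = F := by
    funext v g
    rw [h0, Finset.sum_eq_single v]
    · rw [Matrix.one_apply_eq, one_mul]
    · intro w _ hw
      rw [Matrix.one_apply_ne hw.symm, zero_mul]
    · intro h
      exact absurd (mem_univ _) h
  rw [this]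

end Vale.Agent.P146.R2.H749
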