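import Vale.Agent.P146.R2.H757.Star
import Vale.Agent.P146.R2.H597.Sym
import Vale.Agent.P146.R2.H749.RecSk
import Vale.Agent.P146.R2.H432.Tail
import Vale.Agent.P146.R2.H432.Mom

/-!
# P146: the two families of Hermite coefficients
-/

namespace Vale.Agent.P146.R2

open Vale.Agent.P146 Vale.Agent.P146.H605 Vale.Agent.P146.H453

variable {n : ℕ} (β : ℝ)

/-- the coefficients of `U_k(W) ⟨σ σ_j⟩` -/
noncomputable def CC (j : Fin n) (k : ℕ) : Fam n :=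
  H749.cf (fun v g => ∑ u, H432.cheb k (H432.WW g) v u * f2 β j u g)

/-- the coefficients of `U_k(W) ∂₁∂₂∂₃ ⟨σ σ_j⟩` -/
noncomputable def GG (j _v : Fin n) (e₁ e₂ e₃ : Pair n) (k : ℕ) : Fam n :=
  H749.cf (fun i g => ∑ u, H432.cheb k (H432.WW g) i u * H757.g3 β j e₁ e₂ e₃ u g)

lemma CC_mf (j : Fin n) (k : ℕ) :
    CC β j k = H749.cf (H757.mf β (fun g => H432.cheb k (H432.WW g)) j) := rfl

lemma GG_mh (j v : Fin n) (e₁ e₂ e₃ : Pair n) (k : ℕ) :
    GG β j v e₁ e₂ e₃ k =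
      H749.cf (H757.mh β (fun g => H432.cheb k (H432.WW g)) j e₁ e₂ e₃) := rfl

end Vale.Agent.P146.R2
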