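import Vale.Agent.P146.R2.H749.XK
import Vale.Agent.P146.R2.H844.XH1
import Vale.Agent.P146.R2.H49.XH2
import Vale.Agent.P146.R2.H144.XJ
import Vale.Agent.P146.R2.H729.XP
import Vale.Agent.P146.R2.H910.XQ
import Vale.Agent.P146.R2.H501.RowE
import Vale.Agent.P146.R2.H952.KP
import Vale.Agent.P146.R2.H793.TrJ
import Vale.Agent.P146.R2.H453.Phys

/-!
# P146: the lower tail of the free energy at small deviations: exponent 12/5 (lower bound)
-/

open MeasureTheory ProbabilityTheory Filter Topology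

namespace Vale.Agent.P146.R2.H749

open Vale.Agent.P146 Vale.Agent.P146.H605

/-- For `β > 1` and small `s > 0` the probability that the free energy is below `n (p - s)` is at
least `exp (-C s^(12/5) n²)` for large `n`. -/
theorem low_phys {β : ℝ} (hβ : 1 < β) {p : ℝ}
    (hp : Tendsto (fun n : ℕ => (∫ g, freeEnergy n β g ∂(disorder n)) / n) atTop (𝓝 p)) :
    ∃ C δ : ℝ, 0 < C ∧ 0 < δ ∧ ∀ s : ℝ, 0 < s → s ≤ δ → ∀ᶠ n : ℕ in atTop,
      Real.exp (-(C * s ^ (12 / 5 : ℝ) * (n : ℝ) ^ 2)) ≤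
        (disorder n).real {g | freeEnergy n β g ≤ n * (p - s)} := by
  have hβ0 : 0 < β := by linarith
  obtain ⟨κ₀, hκ₀, hE⟩ := H501.RowE.rowE
  obtain ⟨δ, hδ⟩ : ∃ δ, δ = min κ₀ 1 := ⟨_, rfl⟩
  have hδ0 : 0 < δ := by rw [hδ]; exact lt_min hκ₀ one_pos
  have hδ1 : δ ≤ 1 := hδ ▸ min_le_right _ _
  have hδκ : δ ≤ κ₀ := hδ ▸ min_le_left _ _
  obtain ⟨c3, L0, hc3, hL0, hkp⟩ := H952.X.kp H749.X.stK (H49.X.stH2 H844.X.stH1) H144.X.stJ
    H729.X.stP β hβ δ hδ0 hδ1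
  obtain ⟨x, -, -, hx2⟩ := H793.Tr.stJ hβ
  have hpe : p = Real.log 2 + Vale.Agent.P146.Sh.P0 β := tendsto_nhds_unique hp hx2
  refine H453.Phys.phys_of
    (f := fun n s => (disorder n).real {g | freeEnergy n β g ≤ n * (p - s)})
    (fun n s s' hs => ?_) (c := c3 / 2) (C := 4 * δ ^ 2) (by positivity) (by positivity)
    (L₀ := L0) (fun L hL hL1 => ?_)
  · refine measureReal_mono (fun g hg => ?_) (measure_ne_top _ _)
    have h0 : (0 : ℝ) ≤ n := Nat.cast_nonneg _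
    have hg' : freeEnergy n β g ≤ n * (p - s') := hg
    show freeEnergy n β g ≤ n * (p - s)
    refine hg'.trans (mul_le_mul_of_nonneg_left (by linarith) h0)
  obtain ⟨c, hc, hP⟩ := hkp L hL
  have hL2 : 2 ≤ L := hL0.trans hL
  have hLr : (2 : ℝ) ≤ L := by exact_mod_cast hL2
  have hLp : (0 : ℝ) < L := by linarith
  have hq : 0 < 1 / (L : ℝ) := by positivity
  -- the norm
  have hR : (2 : ℝ) < (1 + 1 / (L : ℝ)) + (1 + 1 / (L : ℝ))⁻¹ := by
    obtain ⟨q, hq'⟩ : ∃ q, q = 1 + 1 / (L : ℝ) := ⟨_, rfl⟩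
    rw [← hq']
    have hq1 : 1 < q := by linarith
    have hq0 : 0 < q := by linarith
    have h1 : q + q⁻¹ - 2 = (q - 1) ^ 2 * q⁻¹ := by
      field_simp
      ring
    have h2 : 0 < (q - 1) ^ 2 * q⁻¹ := by
      have : 0 < q - 1 := by linarith
      positivity
    linarith
  have hK : H729.Tr.Adm L c ((1 + 1 / (L : ℝ)) + (1 + 1 / (L : ℝ))⁻¹) := by
    refine hE L hL1 (δ / L ^ 4) (by positivity) ?_ c (fun k => ?_)
    · rw [div_mul_cancel₀ _ (by positivity)]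
      exact hδκ
    · rw [abs_of_nonneg (hc k).1]
      exact (hc k).2
  -- the cost
  have hQ : 1 / 4 * ∑ k ∈ Finset.range L, (2 * (k : ℝ) + 3) * c k ^ 2 < 4 * δ ^ 2 / L ^ 6 := by
    have h1 : 1 / 4 * ∑ k ∈ Finset.range L, (2 * (k : ℝ) + 3) * c k ^ 2 ≤
      3 * δ ^ 2 / L ^ 6 := H910.X.cst_le hL2 hδ0.le hc
    refine h1.trans_lt ?_
    refine div_lt_div_of_pos_right ?_ (by positivity)
    have : 0 < δ ^ 2 := by positivity
    linarith
  have hpow : 0 < (L : ℝ) ^ (-(5 / 2) : ℝ) := by positivity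
  have hgen := H729.Tr.low_gen hβ0 L c hR hK hP hQ
    (κ := c3 / 2 * (L : ℝ) ^ (-(5 / 2) : ℝ)) (by positivity)
  filter_upwards [hgen] with n hn
  have e1 : 4 * δ ^ 2 * (L : ℝ) ^ (-6 : ℝ) = 4 * δ ^ 2 / L ^ 6 := by
    rw [Real.rpow_neg hLp.le, div_eq_mul_inv]
    norm_num
  have e2 : Real.log 2 + (Vale.Agent.P146.Sh.P0 β - c3 * (L : ℝ) ^ (-(5 / 2) : ℝ)) +
      c3 / 2 * (L : ℝ) ^ (-(5 / 2) : ℝ) = p - c3 / 2 * (L : ℝ) ^ (-(5 / 2) : ℝ) := by
    rw [hpe]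
    ring
  rw [e2] at hn
  rw [e1]
  exact hn

end Vale.Agent.P146.R2.H749
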