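import Vale.Agent.P146.R2.H749.Levels
import Vale.Agent.P146.R2.H432.Tail

/-!
# P146: Parseval's identity for the free energy, with a rate
-/

open MeasureTheory ProbabilityTheory Finset Filter Topology

namespace Vale.Agent.P146.R2

open Vale.Agent.P146 Vale.Agent.P146.Ub.Cv Vale.Agent.P146.H605
open Vale.Agent.P146.H453 (MI ML un mem_ML)

variable (n : ℕ) (β : ℝ)

lemma freeEnergy_upd (p : Pair n) (g : Pair n → ℝ) (t : ℝ) :
    HasDerivAt (fun t => freeEnergy n β (Function.update g p t))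
      (gradF n β p (Function.update g p t)) t := by
  have h := (reg_freeEnergy n β).path (p := fun t => Function.update g p t)
    (hasDerivAt_update g p t)
  refine h.congr_deriv ?_
  rw [Finset.sum_eq_single p]
  · rw [Pi.single_eq_same, mul_one]
  · intro q _ hq
    rw [Pi.single_eq_of_ne hq, mul_zero]
  · intro h
    exact absurd (mem_univ _) h

lemma smo_gradF (k : ℕ) (p : Pair n) : H432.Smo k (gradF n β p) := by
  have h := H432.smo_gav (ska n β) (fun _ => 0) k (fun s => ska n β s p)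
  refine (congrArg (H432.Smo k) ?_).mp h
  funext g
  exact gradF_eq n β p g

lemma co_gradF (p : Pair n) (α : MI n) :
    co (gradF n β p) α = co (freeEnergy n β) (α + un p) :=
  (H749.co_ibp (freeEnergy_dom n β) (smo_gradF n β 0 p).dom p (freeEnergy_upd n β p) α).symm

lemma sum_int_gradF_sq (hn : 1 ≤ n) :
    ∑ p : Pair n, ∫ y, gradF n β p y ^ 2 ∂(gpi (Pair n)) ≤ β ^ 2 * n / 2 := by
  have h5 : prof n β 1 ≤ β ^ 2 * n / 2 := by
    rw [prof_eq_phi n β hn zero_le_one le_rfl]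
    exact phi_le (reg_freeEnergy n β).G_dom (sum_gradF_sq n β) _
  rw [prof_QQ n β hn zero_le_one le_rfl] at h5
  refine le_trans (le_of_eq ?_) h5
  exact Finset.sum_congr rfl fun p _ => (H432.QQ_one' _).symm

/-- the profile up to the high levels -/
lemma prof_le_low (hn : 1 ≤ n) {t : ℝ} (h0 : 0 ≤ t) (h1 : t ≤ 1) (L : ℕ) :
    prof n β t ≤ ∑ p : Pair n, ∑ α ∈ ML n L,
      H453.wt t α * co (freeEnergy n β) (α + un p) ^ 2 + t ^ (L + 1) * (β ^ 2 * n / 2) := by
  rw [prof_QQ n β hn h0 h1]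
  have h2 : ∀ p : Pair n, QQ (gradF n β p) t ≤
      ∑ α ∈ ML n L, H453.wt t α * co (freeEnergy n β) (α + un p) ^ 2 +
        t ^ (L + 1) * ∫ y, gradF n β p y ^ 2 ∂(gpi (Pair n)) := by
    intro p
    have h3 := H432.tail L (smo_gradF n β (L + 3) p) h0 h1
    simpa only [co_gradF] using h3
  refine (Finset.sum_le_sum fun p _ => h2 p).trans ?_
  rw [Finset.sum_add_distrib, ← Finset.mul_sum]
  have h4 := mul_le_mul_of_nonneg_left (sum_int_gradF_sq n β hn)
    (by positivity : (0 : ℝ) ≤ t ^ (L + 1))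
  linarith

lemma levs_eq (L : ℕ) : levs n L = (ML n L).erase 0 := by
  ext α
  rw [mem_levs, Finset.mem_erase, mem_ML]
  constructor
  · rintro ⟨h1, h2⟩
    refine ⟨?_, h2⟩
    rintro rfl
    simp at h1
  · rintro ⟨h1, h2⟩
    refine ⟨?_, h2⟩
    rw [Nat.one_le_iff_ne_zero]
    intro h3
    apply h1
    funext e
    exact Finset.sum_eq_zero_iff.1 h3 e (mem_univ e)

lemma levelVar_eq (L : ℕ) :
    ∑ α ∈ ML n L, H453.wt 1 α * co (freeEnergy n β) α ^ 2 -
      ∑ α ∈ ML n L, H453.wt 0 α * co (freeEnergy n β) α ^ 2 = levelVar n β L := by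
  have h0 : (0 : MI n) ∈ ML n L := by
    rw [mem_ML]
    simp [H453.tot]
  rw [← Finset.add_sum_erase _ _ h0, ← Finset.add_sum_erase _ (fun α =>
    H453.wt 0 α * co (freeEnergy n β) α ^ 2) h0, H432.wt_zero_right, H432.wt_zero_right]
  have h1 : ∑ α ∈ (ML n L).erase 0, H453.wt 0 α * co (freeEnergy n β) α ^ 2 = 0 := by
    refine Finset.sum_eq_zero fun α hα => ?_
    rw [H432.wt_zero_left (Finset.ne_of_mem_erase hα), zero_mul]
  rw [h1]
  unfold levelVar
  rw [levs_eq]
  have h2 : ∀ α ∈ (ML n L).erase 0, H453.wt 1 α * co (freeEnergy n β) α ^ 2 =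
      hcoef n β α ^ 2 := by
    intro α _
    rw [hcoef_sq]
    unfold H453.wt
    rw [one_pow]
    ring
  rw [Finset.sum_congr rfl h2]
  ring

/-- **Parseval's identity with a rate.** -/
theorem var_le_levelVar (hn : 1 ≤ n) (L : ℕ) :
    Var[freeEnergy n β; disorder n] ≤ levelVar n β (L + 1) + β ^ 2 * n / 2 / (L + 2) := by
  rw [← crossCov_one n β hn, crossCov_formula n β hn zero_le_one le_rfl]
  obtain ⟨Ψ, hΨ⟩ : ∃ Ψ : ℝ → ℝ, Ψ = fun t => ∑ α ∈ ML n (L + 1),
    H453.wt t α * co (freeEnergy n β) α ^ 2 := ⟨_, rfl⟩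
  obtain ⟨Ψ', hΨ'⟩ : ∃ Ψ' : ℝ → ℝ, Ψ' = fun t => ∑ p : Pair n, ∑ α ∈ ML n L,
    H453.wt t α * co (freeEnergy n β) (α + un p) ^ 2 := ⟨_, rfl⟩
  have c1 : Continuous Ψ := by
    rw [hΨ]
    exact continuous_finsetSum _ fun α _ => (H432.wtc α).mul continuous_const
  have c2 : Continuous Ψ' := by
    rw [hΨ']
    exact continuous_finsetSum _ fun p _ => continuous_finsetSum _ fun α _ =>
      (H432.wtc α).mul continuous_const
  have d : ∀ t ∈ Set.Ioo (0 : ℝ) 1, HasDerivAt Ψ (Ψ' t) t := by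
    intro t ht
    rw [hΨ, hΨ']
    exact H432.hasDerivAt_sum L (fun α => co (freeEnergy n β) α ^ 2) ht.1
  have i1 : ∫ t in (0 : ℝ)..1, Ψ' t = Ψ 1 - Ψ 0 :=
    intervalIntegral.integral_eq_sub_of_hasDerivAt_of_le zero_le_one c1.continuousOn d
      (c2.intervalIntegrable _ _)
  have i2 : Ψ 1 - Ψ 0 = levelVar n β (L + 1) := by
    rw [hΨ]
    exact levelVar_eq n β (L + 1)
  have c3 : Continuous fun t : ℝ => t ^ (L + 1) * (β ^ 2 * n / 2) := by fun_prop
  have h2 : ∫ a in (0 : ℝ)..1, prof n β a ≤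
      ∫ a in (0 : ℝ)..1, (Ψ' a + a ^ (L + 1) * (β ^ 2 * n / 2)) := by
    refine intervalIntegral.integral_mono_on zero_le_one
      (prof_intervalIntegrable n β hn le_rfl zero_le_one le_rfl)
      ((c2.add c3).intervalIntegrable _ _) fun a ha => ?_
    rw [hΨ']
    exact prof_le_low n β hn ha.1 ha.2 L
  refine h2.trans (le_of_eq ?_)
  rw [intervalIntegral.integral_add (c2.intervalIntegrable _ _) (c3.intervalIntegrable _ _),
    i1, i2, intervalIntegral.integral_mul_const, integral_pow]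
  push_cast
  field_simp
  ring

/-- The levels above `m` carry at most `β² n / (2 (m + 1))`. -/
theorem var_sub_levelVar (hn : 1 ≤ n) (m : ℕ) (hm : 1 ≤ m) :
    Var[freeEnergy n β; disorder n] - levelVar n β m ≤ β ^ 2 * n / (2 * ((m : ℝ) + 1)) := by
  obtain ⟨L, rfl⟩ : ∃ L, m = L + 1 := ⟨m - 1, by omega⟩
  have h := var_le_levelVar n β hn L
  have e : β ^ 2 * n / (2 * (((L + 1 : ℕ) : ℝ) + 1)) = β ^ 2 * n / 2 / ((L : ℝ) + 2) := by
    push_cast
    rw [div_div]
    congr 1
    ring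
  rw [e]
  linarith

/-- **Parseval's identity**: the Hermite levels carry the whole variance. -/
theorem tendsto_levelVar (hn : 1 ≤ n) :
    Tendsto (levelVar n β) atTop (𝓝 (Var[freeEnergy n β; disorder n])) := by
  have h1 : Tendsto (fun m : ℕ => Var[freeEnergy n β; disorder n] -
      β ^ 2 * n / (2 * ((m : ℝ) + 1))) atTop (𝓝 (Var[freeEnergy n β; disorder n] - 0)) := by
    refine tendsto_const_nhds.sub ?_
    have h2 : Tendsto (fun m : ℕ => 2 * ((m : ℝ) + 1)) atTop atTop :=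
      (tendsto_natCast_atTop_atTop.atTop_add tendsto_const_nhds).const_mul_atTop two_pos
    exact h2.const_div_atTop _
  rw [sub_zero] at h1
  refine tendsto_of_tendsto_of_tendsto_of_le_of_le' h1 tendsto_const_nhds ?_ ?_
  · filter_upwards [eventually_ge_atTop 1] with m hm
    have := var_sub_levelVar n β hn m hm
    linarith
  · exact Eventually.of_forall fun m => levelVar_le_var n β hn m

end Vale.Agent.P146.R2
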