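import Vale.Agent.P146.R2.H749.Bessel
import Vale.Agent.P146.R2.Def

/-!
# P146: the Chebyshev recursion for the families of coefficients; their norms
-/

open MeasureTheory ProbabilityTheory Finset

namespace Vale.Agent.P146.R2.H749

open Vale.Agent.P146 Vale.Agent.P146.Ub.Cv Vale.Agent.P146.H605 Vale.Agent.P146.R2

variable {n : ℕ}

/-- the disorder matrix divided by `√n`, acting on vectors of functions of the disorder -/
noncomputable def wm (A : Fin n → (Pair n → ℝ) → ℝ) : Fin n → (Pair n → ℝ) → ℝ :=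
  fun v g => (Real.sqrt n)⁻¹ * ∑ e ∈ H453.st v, g e * A (H453.ot v e) g

/-- the family of the coefficients -/
noncomputable def cf (A : Fin n → (Pair n → ℝ) → ℝ) : H453.Fam n := fun v α => co (A v) α

lemma dom_wm {A : Fin n → (Pair n → ℝ) → ℝ} (hA : ∀ v, Dom (A v)) (v : Fin n) :
    Dom (wm A v) :=
  (Dom.sum _ fun e _ => (Dom.coord e).mul (hA _)).const_mul _

lemma cf_wm {A : Fin n → (Pair n → ℝ) → ℝ} (hA : ∀ v, Dom (A v)) :
    cf (wm A) = H453.up (cf A) + H453.dn (cf A) := by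
  funext v α
  simp only [Pi.add_apply]
  unfold cf wm H453.up H453.dn
  rw [co_const_mul, co_sum _ fun e _ => (Dom.coord e).mul (hA _), ← mul_add,
    ← Finset.sum_add_distrib]
  congr 1
  refine Finset.sum_congr rfl fun e _ => ?_
  rw [co_coord (hA _)]
  rfl

/-- the recursion of the Chebyshev vectors gives the recursion of their coefficients -/
theorem cf_rec {A : ℕ → Fin n → (Pair n → ℝ) → ℝ} (hA : ∀ k v, Dom (A k v))
    (h1 : ∀ v g, A 1 v g = wm (A 0) v g)
    (h2 : ∀ k v g, A (k + 2) v g = wm (A (k + 1)) v g - A k v g) (k : ℕ) :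
    cf (A (k + 1)) = H453.up (cf (A k)) + H453.dn (cf (A k)) - H453.pv (fun k => cf (A k)) k := by
  cases k with
  | zero =>
    have e1 : A 1 = wm (A 0) := funext fun v => funext fun g => h1 v g
    rw [zero_add, e1, cf_wm (hA 0)]
    simp [H453.pv]
  | succ k =>
    have e1 : A (k + 2) = fun v g => wm (A (k + 1)) v g - A k v g :=
      funext fun v => funext fun g => h2 k v g
    have e2 : cf (A (k + 2)) = cf (wm (A (k + 1))) - cf (A k) := by
      rw [e1]
      funext v α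
      simp only [Pi.sub_apply]
      exact co_sub (dom_wm (hA (k + 1)) v) (hA k v) α
    rw [e2, cf_wm (hA (k + 1))]
    rfl

/-- integration by parts in three coordinates -/
lemma co_ibp3 {A A₁ A₂ A₃ : (Pair n → ℝ) → ℝ} (h0 : Dom A) (h1 : Dom A₁) (h2 : Dom A₂)
    (h3 : Dom A₃) (e₁ e₂ e₃ : Pair n)
    (d1 : ∀ g t, HasDerivAt (fun t => A (Function.update g e₃ t))
      (A₁ (Function.update g e₃ t)) t)
    (d2 : ∀ g t, HasDerivAt (fun t => A₁ (Function.update g e₂ t))
      (A₂ (Function.update g e₂ t)) t)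
    (d3 : ∀ g t, HasDerivAt (fun t => A₂ (Function.update g e₁ t))
      (A₃ (Function.update g e₁ t)) t) (α : H453.MI n) :
    co A (α + H453.un e₁ + H453.un e₂ + H453.un e₃) = co A₃ α := by
  unfold H453.un
  rw [co_ibp h0 h1 e₃ d1, co_ibp h1 h2 e₂ d2, co_ibp h2 h3 e₁ d3]

/-- Bessel's inequality for the norms of the combinatorial core -/
lemma nv_le {A : Fin n → (Pair n → ℝ) → ℝ} {v : Fin n} (hA : Dom (A v)) {t : ℝ} (h0 : 0 ≤ t)
    (h1 : t ≤ 1) (L : ℕ) : H453.nv t L (cf A) v ≤ QQ (A v) t :=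
  bessel hA h0 h1 (H453.ML n L)

lemma ns_le {A : Fin n → (Pair n → ℝ) → ℝ} (hA : ∀ v, Dom (A v)) {t : ℝ} (h0 : 0 ≤ t)
    (h1 : t ≤ 1) (L : ℕ) : H453.ns t L (cf A) ≤ ∑ v, QQ (A v) t :=
  Finset.sum_le_sum fun v _ => nv_le (hA v) h0 h1 L

end Vale.Agent.P146.R2.H749
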